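import Vale.Agent.P242.H597.EnvD
import Vale.Agent.P242.H358.LocLip
import Vale.Agent.P242.H358.Near

/-! P242, A4-PRE (helper597): **the block `Blk_PreX`** (interface of helper358). -/

set_option linter.all false

open MeasureTheory Filter Topology Set Metric
open scoped ENNReal NNReal InnerProductSpace

universe u

namespace Vale.Agent.P242.H597

open Vale.Agent.P233 Vale.Agent.P233.RA Vale.Agent.P242.H71 Vale.Agent.P242.H990
  Vale.Agent.P242.H751 Vale.Agent.P242.H155

/-- the error of `diag` -/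
noncomputable def ef (n : ℕ) (A L Q ε η : ℝ) : ℝ :=
  Ck n A L * (17 * √ε * qf n A L Q ε η + (qf n A L Q ε η - 1))

theorem ef_mono {n : ℕ} {A L Q ε η d : ℝ} (hA : 1 ≤ A) (hL : 1 ≤ L) (hQ : 0 ≤ Q) (hε : 0 ≤ ε)
    (hη : 0 ≤ η) (h1 : ε ≤ d) (h2 : η ≤ d) (hk : 0 ≤ Ck n A L) :
    ef n A L Q ε η ≤ ef n A L Q d d := by
  have hA2 : 1 ≤ A ^ 2 := one_le_pow₀ hA
  have hL2 : 1 ≤ L ^ 2 := one_le_pow₀ hL
  have hAL : 1 ≤ 4 * A ^ 2 * L ^ 2 := by nlinarith
  have hd : 0 ≤ d := hε.trans h1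
  have hq : qf n A L Q ε η ≤ qf n A L Q d d := by
    unfold qf
    refine Real.rpow_le_rpow_of_exponent_le hAL ?_
    have : 5 * n * Q * η ≤ 5 * n * Q * d := by gcongr
    linarith
  have hq0 : 0 ≤ qf n A L Q ε η := by unfold qf; positivity
  have hs : √ε ≤ √d := Real.sqrt_le_sqrt h1
  unfold ef
  refine mul_le_mul_of_nonneg_left ?_ hk
  have : 17 * √ε * qf n A L Q ε η ≤ 17 * √d * qf n A L Q d d := by gcongr
  linarith

theorem ef_small {n : ℕ} {A L Q e : ℝ} (hA : 1 ≤ A) (hL : 1 ≤ L) (he : 0 < e) :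
    ∃ d : ℝ, 0 < d ∧ ef n A L Q d d ≤ e := by
  have hA2 : 1 ≤ A ^ 2 := one_le_pow₀ hA
  have hL2 : 1 ≤ L ^ 2 := one_le_pow₀ hL
  have hAL : 0 < 4 * A ^ 2 * L ^ 2 := by nlinarith
  have hq : Continuous fun d : ℝ => qf n A L Q d d := by
    unfold qf
    exact Continuous.rpow continuous_const (by fun_prop) (fun _ => Or.inl hAL.ne')
  have hc : Continuous fun d : ℝ => ef n A L Q d d := by
    unfold ef
    exact continuous_const.mul ((((continuous_const.mul Real.continuous_sqrt).mul hq)).add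
      (hq.sub continuous_const))
  have h0 : ef n A L Q 0 0 = 0 := by
    unfold ef qf
    simp
  have h1 : Tendsto (fun d : ℝ => ef n A L Q d d) (𝓝[>] 0) (𝓝 0) := by
    have := (hc.tendsto 0).mono_left (nhdsWithin_le_nhds (s := Ioi 0))
    rwa [h0] at this
  have h2 := (h1.eventually (gt_mem_nhds he)).and self_mem_nhdsWithin
  obtain ⟨d, hd1, hd2⟩ := h2.exists
  exact ⟨d, hd2, hd1.le⟩

/-- **A4-PRE at one centre.** -/
theorem blk_PreX : H358.Blk_PreX.{u} := by
  intro M _ _ _ _ _ m n K o A p h L hL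
  have hA := h.kb.one_le
  have hA2 : 1 ≤ A ^ 2 := one_le_pow₀ hA
  have hL5 : 1 ≤ 5 * L := by linarith
  have hn : 1 ≤ n := by have := h.hyp.two_le; omega
  have hn' : (1 : ℝ) ≤ n := by exact_mod_cast hn
  have hAL : 1 ≤ 4 * A ^ 2 * (5 * L) ^ 2 := by
    have : 1 ≤ (5 * L) ^ 2 := one_le_pow₀ hL5
    nlinarith
  refine ⟨4 * A ^ 2 * (5 * L) ^ 2, hAL, fun Q hQ => ⟨2 * (5 * L), by linarith, fun R hR e he => ?_⟩⟩
  have hQ1 : 1 ≤ Q := hAL.trans hQ
  obtain ⟨d, hd, hde⟩ := ef_small (n := n) (Q := Q) hA hL5 he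
  have hmin : 0 < min d (min (1 / 16) (min (1 / (2 * (1 + 24 * n))) (min (1 / (2 * Q))
      (e / (24 * n * Q))))) := by positivity
  refine ⟨_, hmin, ?_⟩
  intro ε' η ρ hε0 hε hη0 hη hρ u uu hu x hx t ht htρ hT
  have a1 := hε.trans (min_le_left _ _)
  have a2 := (hε.trans (min_le_right _ _)).trans (min_le_left _ _)
  have b1 := hη.trans (min_le_left _ _)
  have b2 := (hη.trans (min_le_right _ _)).trans (min_le_right _ _)
  have b3 := b2.trans (min_le_left _ _)
  have b4 := (b2.trans (min_le_right _ _)).trans (min_le_left _ _)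
  have b5 := (b2.trans (min_le_right _ _)).trans (min_le_right _ _)
  have hη1 : (1 + 24 * n) * η ≤ 1 / 2 := by
    rw [le_div_iff₀ (by positivity)] at b3
    linarith
  have hQη : Q * η ≤ 1 / 2 := by
    rw [le_div_iff₀ (by positivity)] at b4
    linarith
  have hQη' : 24 * n * Q * η ≤ e := by
    rw [le_div_iff₀ (by positivity)] at b5
    linarith
  have hef : ef n A (5 * L) Q ε' η ≤ e :=
    (ef_mono hA hL5 (by linarith) hε0.le hη0.le a1 b1 (Ck_nonneg h hL5)).trans hde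
  have hL5' : L ≤ 5 * L := by linarith
  refine ⟨fun c => ?_, fun s hs1 hs2 c c' => ?_, fun c => ?_⟩
  · exact G_lower h hu hQ1 (ball_mono hu (by linarith) hx) ht htρ hT a2 hη0.le hη1 c
  · have hs0 : 0 < s := lt_of_lt_of_le (by positivity) hs1
    refine polar h hu hs0 ht he.le (fun c => ?_) c c'
    have h1 := diag h hu hL5 hQ hR hn hx ht htρ hT hε0.le a2 hη0.le hη1 hQη (z := x)
      (by rw [dist_self]; positivity) (s := s) (by
        refine le_trans ?_ hs1
        gcongr) (by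
        refine hs2.trans ?_
        gcongr) c
    refine h1.trans (mul_le_mul_of_nonneg_right hef (Gm_nonneg h hu x c ht))
  · have hG := Gm_nonneg h hu x c ht
    have h1 := ae_bound h hu hL5 hQ hR hn hx ht htρ hT hε0.le a2 hη0.le hη1 hQη c
    refine H358.loc_lip h hu c (by positivity) ?_
    filter_upwards [h1] with z hz hd
    refine (hz (by rw [dist_comm]; linarith)).trans ?_
    rw [mul_pow, Real.sq_sqrt hG]
    refine mul_le_mul_of_nonneg_right ?_ hG
    have h2 : Ck n A (5 * L) * (17 * √ε' * qf n A (5 * L) Q ε' η + (qf n A (5 * L) Q ε' η - 1)) ≤ e :=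
      hef
    nlinarith

theorem blk_nearX : H155.Blk_NearX.{u} := H358.blk_nearX blk_PreX

theorem blk_near : H71.Blk_Near.{u} := H358.blk_near blk_PreX

end Vale.Agent.P242.H597
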