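import Vale.Agent.P242.H597.EnvA
import Vale.Agent.P242.H155.Tx

/-! P242, A4-PRE (helper597): growth of `G_s(x)` from the transformation estimate at one centre. -/

set_option linter.all false

open MeasureTheory Filter Topology Set Metric
open scoped ENNReal NNReal InnerProductSpace

universe u

namespace Vale.Agent.P242.H597

open Vale.Agent.P233 Vale.Agent.P233.RA Vale.Agent.P242.H71 Vale.Agent.P242.H990
  Vale.Agent.P242.H751 Vale.Agent.P242.H155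

section real

/-- Growth lemma: `g' ≤ a g / s + b` on `[t, T]`. -/
theorem growth_low {g g' : ℝ → ℝ} {t T a b : ℝ} (ht : 0 < t) (htT : t ≤ T) (ha : a ≤ 1 / 2)
    (hb : 0 ≤ b) (hd : ∀ s, t ≤ s → s ≤ T → HasDerivAt g (g' s) s)
    (hle : ∀ s, t ≤ s → s ≤ T → g' s ≤ a * g s / s + b) :
    T ^ (-a) * g T ≤ t ^ (-a) * g t + 2 * b * T ^ (1 - a) := by
  have hT : 0 < T := ht.trans_le htT
  set H : ℝ → ℝ := fun s => s ^ (-a) * g s - 2 * b * s ^ (1 - a) with hH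
  have hder : ∀ s, t ≤ s → s ≤ T → HasDerivAt H
      ((-a * s ^ (-a - 1)) * g s + s ^ (-a) * g' s - 2 * b * ((1 - a) * s ^ (1 - a - 1))) s := by
    intro s h1 h2
    have hs : 0 < s := ht.trans_le h1
    have d1 := (Real.hasDerivAt_rpow_const (p := -a) (Or.inl hs.ne')).mul (hd s h1 h2)
    have d2 := (Real.hasDerivAt_rpow_const (x := s) (p := 1 - a) (Or.inl hs.ne')).const_mul (2 * b)
    exact d1.sub d2
  have hcont : ContinuousOn H (Icc t T) := fun s hs =>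
    (hder s hs.1 hs.2).continuousAt.continuousWithinAt
  have hanti : AntitoneOn H (Icc t T) := by
    refine antitoneOn_of_deriv_nonpos (convex_Icc t T) hcont ?_ ?_
    · intro s hs
      rw [interior_Icc] at hs
      exact (hder s hs.1.le hs.2.le).differentiableAt.differentiableWithinAt
    · intro s hs
      rw [interior_Icc] at hs
      rw [(hder s hs.1.le hs.2.le).deriv]
      have hs0 : 0 < s := ht.trans hs.1
      have e1 : s ^ (-a - 1) = s ^ (-a) / s := by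
        rw [Real.rpow_sub_one hs0.ne']
      have e2 : s ^ (1 - a - 1) = s ^ (-a) := by congr 1; ring
      rw [e1, e2]
      have h3 := hle s hs.1.le hs.2.le
      have h4 : 0 < s ^ (-a) := Real.rpow_pos_of_pos hs0 _
      have h5 : -a * (s ^ (-a) / s) * g s + s ^ (-a) * g' s - 2 * b * ((1 - a) * s ^ (-a))
          = s ^ (-a) * (g' s - a * g s / s - 2 * b * (1 - a)) := by
        field_simp
        ring
      rw [h5]
      refine mul_nonpos_of_nonneg_of_nonpos h4.le ?_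
      nlinarith
  have h6 := hanti (left_mem_Icc.2 htT) (right_mem_Icc.2 htT) htT
  simp only [hH] at h6
  have h7 : 0 ≤ 2 * b * t ^ (1 - a) := by positivity
  linarith

/-- Growth lemma: `|g'| ≤ a g / s` on `[t, T]`. -/
theorem growth_two {g g' : ℝ → ℝ} {t T a : ℝ} (ht : 0 < t)
    (hd : ∀ s, t ≤ s → s ≤ T → HasDerivAt g (g' s) s)
    (hle : ∀ s, t ≤ s → s ≤ T → |g' s| ≤ a * g s / s) {s₁ s₂ : ℝ} (h1 : t ≤ s₁) (h2 : s₁ ≤ s₂)
    (h3 : s₂ ≤ T) : g s₂ ≤ (s₂ / s₁) ^ a * g s₁ ∧ g s₁ ≤ (s₂ / s₁) ^ a * g s₂ := by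
  have hs1 : 0 < s₁ := ht.trans_le h1
  have hs2 : 0 < s₂ := hs1.trans_le h2
  have key : ∀ σ : ℝ, (∀ s, t ≤ s → s ≤ T → HasDerivAt (fun s => s ^ σ * g s)
      (σ * s ^ (σ - 1) * g s + s ^ σ * g' s) s) := by
    intro σ s k1 k2
    have hs : 0 < s := ht.trans_le k1
    exact (Real.hasDerivAt_rpow_const (p := σ) (Or.inl hs.ne')).mul (hd s k1 k2)
  have hsub : ∀ s ∈ Icc s₁ s₂, t ≤ s ∧ s ≤ T := fun s hs => ⟨h1.trans hs.1, hs.2.trans h3⟩
  have hcont : ∀ σ : ℝ, ContinuousOn (fun s => s ^ σ * g s) (Icc s₁ s₂) := fun σ s hs =>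
    (key σ s (hsub s hs).1 (hsub s hs).2).continuousAt.continuousWithinAt
  constructor
  · have hanti : AntitoneOn (fun s => s ^ (-a) * g s) (Icc s₁ s₂) := by
      refine antitoneOn_of_deriv_nonpos (convex_Icc _ _) (hcont _) ?_ ?_
      · intro s hs
        rw [interior_Icc] at hs
        have hb := hsub s (Ioo_subset_Icc_self hs)
        exact (key _ s hb.1 hb.2).differentiableAt.differentiableWithinAt
      · intro s hs
        rw [interior_Icc] at hs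
        have hb := hsub s (Ioo_subset_Icc_self hs)
        rw [(key _ s hb.1 hb.2).deriv]
        have hs0 : 0 < s := hs1.trans hs.1
        have e1 : s ^ (-a - 1) = s ^ (-a) / s := by rw [Real.rpow_sub_one hs0.ne']
        rw [e1]
        have h4 : 0 < s ^ (-a) := Real.rpow_pos_of_pos hs0 _
        have h5 : -a * (s ^ (-a) / s) * g s + s ^ (-a) * g' s
            = s ^ (-a) * (g' s - a * g s / s) := by field_simp; ring
        rw [h5]
        refine mul_nonpos_of_nonneg_of_nonpos h4.le ?_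
        have := (abs_le.1 (hle s hb.1 hb.2)).2
        linarith
    have h6 := hanti (left_mem_Icc.2 h2) (right_mem_Icc.2 h2) h2
    simp only at h6
    rw [Real.div_rpow hs2.le hs1.le]
    have p1 : 0 < s₁ ^ a := Real.rpow_pos_of_pos hs1 _
    have p2 : 0 < s₂ ^ a := Real.rpow_pos_of_pos hs2 _
    rw [Real.rpow_neg hs1.le, Real.rpow_neg hs2.le, inv_mul_eq_div, inv_mul_eq_div,
      div_le_div_iff₀ p2 p1] at h6
    rw [div_mul_eq_mul_div, le_div_iff₀ p1]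
    linarith
  · have hmono : MonotoneOn (fun s => s ^ a * g s) (Icc s₁ s₂) := by
      refine monotoneOn_of_deriv_nonneg (convex_Icc _ _) (hcont _) ?_ ?_
      · intro s hs
        rw [interior_Icc] at hs
        have hb := hsub s (Ioo_subset_Icc_self hs)
        exact (key _ s hb.1 hb.2).differentiableAt.differentiableWithinAt
      · intro s hs
        rw [interior_Icc] at hs
        have hb := hsub s (Ioo_subset_Icc_self hs)
        rw [(key _ s hb.1 hb.2).deriv]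
        have hs0 : 0 < s := hs1.trans hs.1
        have e1 : s ^ (a - 1) = s ^ a / s := by rw [Real.rpow_sub_one hs0.ne']
        rw [e1]
        have h4 : 0 < s ^ a := Real.rpow_pos_of_pos hs0 _
        have h5 : a * (s ^ a / s) * g s + s ^ a * g' s
            = s ^ a * (g' s + a * g s / s) := by field_simp; ring
        rw [h5]
        refine mul_nonneg h4.le ?_
        have := (abs_le.1 (hle s hb.1 hb.2)).1
        linarith
    have h6 := hmono (left_mem_Icc.2 h2) (right_mem_Icc.2 h2) h2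
    simp only at h6
    rw [Real.div_rpow hs2.le hs1.le]
    have p1 : 0 < s₁ ^ a := Real.rpow_pos_of_pos hs1 _
    rw [div_mul_eq_mul_div, le_div_iff₀ p1]
    linarith

end real

section env

variable {M : Type u} [MetricSpace M] [CompleteSpace M] [SecondCountableTopology M]
  [MeasurableSpace M] [BorelSpace M] {m : Measure M} {n : ℕ} {K : ℝ} {o : M} {A : ℝ}
  {p : ℝ → M → M → ℝ} {R Q η ρ ε : ℝ} {u : Fin n → M →ₘ[m] ℝ} {uu : M → E n} {x : M} {t : ℝ}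

/-- the derivative of `G_s` against `2 gm` -/
theorem deriv_near (h : Env m n K o A p) (hu : Cfg m n K o p R Q η ρ u uu) (x : M) (c : E n)
    {s : ℝ} (hs : 0 < s) :
    |2 * PP m p s x ((sob m).Γ (uc u c) ((sob m).lap (uc u c)))
      + 2 * (-|K|) * Gm m p u s x c c| ≤ Er (sob m) (-|K|) (uc u c) (ph m p s x) :=
  abs_er_le (env_gamma h) (env_bei' h) (env_cen h x) (uc_test (env_gamma h) hu c) hs

/-- lower bound of the forms at the scale `ρ` -/
theorem G_top (hu : Cfg m n K o p R Q η ρ u uu) (hQ : 1 ≤ Q) (hx : x ∈ ball o (R * ρ)) {s : ℝ}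
    (h1 : ρ ^ 2 / Q ≤ s) (h2 : s ≤ Q * ρ ^ 2) (c : E n) :
    (1 - η) * ‖c‖ ^ 2 ≤ Gm m p u s x c c := by
  have h3 := hu.gram x hx s h1 h2 c c
  rw [real_inner_self_eq_norm_sq] at h3
  have := (abs_le.1 h3).1
  nlinarith

/-- **(pd)** lower bound of `G_t(x)` -/
theorem G_lower (h : Env m n K o A p) (hu : Cfg m n K o p R Q η ρ u uu) (hQ : 1 ≤ Q)
    (hx : x ∈ ball o (R * ρ)) (ht : 0 < t) (htρ : t ≤ ρ ^ 2) (hT : TTx m K p Q ε ρ u x t)
    (hε : ε ≤ 1 / 16) (hη : 0 ≤ η) (hη1 : (1 + 24 * n) * η ≤ 1 / 2) (c : E n) :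
    1 / 2 * (t / ρ ^ 2) ^ (1 / 8 : ℝ) * ‖c‖ ^ 2 ≤ Gm m p u t x c c := by
  have hρ := hu.ρ_pos
  have hρ2 : 0 < ρ ^ 2 := by positivity
  have hQρ : ρ ^ 2 ≤ Q * ρ ^ 2 := by nlinarith
  have h1 := growth_low (g := fun s => Gm m p u s x c c) (t := t) (T := ρ ^ 2) (a := 1 / 8)
    (b := 12 * n * (η / ρ ^ 2) * ‖c‖ ^ 2) ht htρ (by norm_num) (by positivity)
    (fun s k1 k2 => hasDeriv_Gm h hu x c (ht.trans_le k1)) (by
      intro s k1 k2
      have hs := ht.trans_le k1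
      have e1 := (abs_le.1 (deriv_near h hu x c hs)).2
      have e2 := Er_le' h hu hx hs (k2.trans hQρ) hη c
      have e3 := hT s k1 (k2.trans hQρ) c
      have hG := Gm_nonneg h hu x c hs
      have e4 : 2 * gm m K p u s x c c ≤ 1 / 8 * Gm m p u s x c c / s := by
        rw [le_div_iff₀ hs]
        nlinarith
      linarith)
  have h2 := G_top hu hQ hx (s := ρ ^ 2) (by rw [div_le_iff₀ (by linarith)]; nlinarith) hQρ c
  have p1 : 0 < (ρ ^ 2) ^ (1 / 8 : ℝ) := Real.rpow_pos_of_pos hρ2 _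
  have p2 : 0 < t ^ (1 / 8 : ℝ) := Real.rpow_pos_of_pos ht _
  have e5 : 2 * (12 * n * (η / ρ ^ 2) * ‖c‖ ^ 2) * (ρ ^ 2) ^ (1 - 1 / 8 : ℝ)
      = (24 * n * η) * ‖c‖ ^ 2 * ((ρ ^ 2) ^ (1 / 8 : ℝ))⁻¹ := by
    rw [Real.rpow_sub hρ2, Real.rpow_one]
    field_simp
    ring
  rw [e5, Real.rpow_neg hρ2.le, Real.rpow_neg ht.le] at h1
  have h3 : ((ρ ^ 2) ^ (1 / 8 : ℝ))⁻¹ * (1 / 2 * ‖c‖ ^ 2) ≤ (t ^ (1 / 8 : ℝ))⁻¹ * Gm m p u t x c c := by
    have h4 : 1 / 2 * ‖c‖ ^ 2 ≤ Gm m p u (ρ ^ 2) x c c - (24 * n * η) * ‖c‖ ^ 2 := by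
      have h5 : (1 + 24 * n) * η * ‖c‖ ^ 2 ≤ 1 / 2 * ‖c‖ ^ 2 :=
        mul_le_mul_of_nonneg_right hη1 (by positivity)
      linarith
    have h6 := mul_le_mul_of_nonneg_left h4 (inv_pos.2 p1).le
    linarith
  rw [Real.div_rpow ht.le hρ2.le]
  rw [inv_mul_eq_div, inv_mul_eq_div, div_le_div_iff₀ p1 p2] at h3
  have e6 : 1 / 2 * (t ^ (1 / 8 : ℝ) / (ρ ^ 2) ^ (1 / 8 : ℝ)) * ‖c‖ ^ 2
      = (1 / 2 * ‖c‖ ^ 2 * t ^ (1 / 8 : ℝ)) / (ρ ^ 2) ^ (1 / 8 : ℝ) := by ring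
  rw [e6, div_le_iff₀ p1]
  exact h3

/-- the Euclidean norm against the form, all times -/
theorem norm_le (h : Env m n K o A p) (hu : Cfg m n K o p R Q η ρ u uu) (hQ : 1 ≤ Q)
    (hx : x ∈ ball o (R * ρ)) (ht : 0 < t) (hT : TTx m K p Q ε ρ u x t) (hε : ε ≤ 1 / 16)
    (hη : 0 ≤ η) (hη1 : (1 + 24 * n) * η ≤ 1 / 2) {s : ℝ} (hs1 : t ≤ s) (hs2 : s ≤ Q * ρ ^ 2)
    (c : E n) : ‖c‖ ^ 2 ≤ 2 * (Q * ρ ^ 2 / s) * Gm m p u s x c c := by
  have hρ := hu.ρ_pos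
  have hρ2 : 0 < ρ ^ 2 := by positivity
  have hs := ht.trans_le hs1
  have hG := Gm_nonneg h hu x c hs
  rcases le_or_gt s (ρ ^ 2) with k | k
  · have h1 := G_lower h hu hQ hx hs k (hT.mono hs1) hε hη hη1 c
    have h2 : s / ρ ^ 2 ≤ (s / ρ ^ 2) ^ (1 / 8 : ℝ) := by
      have h3 : s / ρ ^ 2 ≤ 1 := (div_le_one hρ2).2 k
      have h4 : 0 < s / ρ ^ 2 := by positivity
      calc s / ρ ^ 2 = (s / ρ ^ 2) ^ (1 : ℝ) := (Real.rpow_one _).symm
        _ ≤ (s / ρ ^ 2) ^ (1 / 8 : ℝ) := Real.rpow_le_rpow_of_exponent_ge h4 h3 (by norm_num)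
    have h3 : 1 / 2 * (s / ρ ^ 2) * ‖c‖ ^ 2 ≤ Gm m p u s x c c := by
      refine le_trans ?_ h1
      gcongr
    have h4 : ‖c‖ ^ 2 ≤ 2 * (ρ ^ 2 / s) * Gm m p u s x c c := by
      have e : ‖c‖ ^ 2 = 2 * (ρ ^ 2 / s) * (1 / 2 * (s / ρ ^ 2) * ‖c‖ ^ 2) := by
        field_simp
      rw [e]
      exact mul_le_mul_of_nonneg_left h3 (by positivity)
    refine h4.trans ?_
    have h5 : ρ ^ 2 / s ≤ Q * ρ ^ 2 / s := by gcongr; nlinarith
    gcongr
  · have h1 := G_top hu hQ hx (s := s) (by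
      rw [div_le_iff₀ (by linarith)]; nlinarith) hs2 c
    have h2 : η ≤ 1 / 2 := by
      have : (0 : ℝ) ≤ 24 * n * η := by positivity
      nlinarith
    have h3 : 1 / 2 * ‖c‖ ^ 2 ≤ Gm m p u s x c c := by
      refine le_trans ?_ h1
      have : (0 : ℝ) ≤ ‖c‖ ^ 2 := by positivity
      nlinarith
    have h4 : 1 ≤ Q * ρ ^ 2 / s := (one_le_div hs).2 hs2
    nlinarith

/-- the error terms relative to the form -/
theorem Er_rel (h : Env m n K o A p) (hu : Cfg m n K o p R Q η ρ u uu) (hQ : 1 ≤ Q) (hn : 1 ≤ n)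
    (hx : x ∈ ball o (R * ρ)) (ht : 0 < t) (hT : TTx m K p Q ε ρ u x t) (hε : ε ≤ 1 / 16)
    (hη : 0 ≤ η) (hη1 : (1 + 24 * n) * η ≤ 1 / 2) {s : ℝ} (hs1 : t ≤ s) (hs2 : s ≤ Q * ρ ^ 2)
    (c : E n) :
    Er (sob m) (-|K|) (uc u c) (ph m p s x) ≤ 5 * n * Q * η * Gm m p u s x c c / s := by
  have hρ := hu.ρ_pos
  have hρ2 : 0 < ρ ^ 2 := by positivity
  have hs := ht.trans_le hs1
  have hG := Gm_nonneg h hu x c hs
  have hn' : (1 : ℝ) ≤ n := by exact_mod_cast hn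
  refine (Er_le h hu hx hs hs2 hη c).trans ?_
  have h1 := norm_le h hu hQ hx ht hT hε hη hη1 hs1 hs2 c
  set G := Gm m p u s x c c with hGd
  have h2 : √G * ‖c‖ ≤ √(2 * (Q * ρ ^ 2 / s)) * G := by
    have h3 : ‖c‖ ≤ √(2 * (Q * ρ ^ 2 / s)) * √G := by
      rw [← Real.sqrt_mul (by positivity)]
      exact Real.le_sqrt_of_sq_le h1
    calc √G * ‖c‖ ≤ √G * (√(2 * (Q * ρ ^ 2 / s)) * √G) :=
          mul_le_mul_of_nonneg_left h3 (Real.sqrt_nonneg _)
      _ = √(2 * (Q * ρ ^ 2 / s)) * (√G * √G) := by ring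
      _ = _ := by rw [Real.mul_self_sqrt hG]
  have h4 : √(2 * (Q * ρ ^ 2 / s)) ≤ 3 / 2 * (Q * ρ ^ 2 / s) := by
    have h5 : 1 ≤ Q * ρ ^ 2 / s := (one_le_div hs).2 hs2
    rw [Real.sqrt_le_iff]
    refine ⟨by positivity, ?_⟩
    nlinarith
  have h6 : √(n : ℝ) ≤ n := by
    rw [Real.sqrt_le_iff]
    refine ⟨by positivity, ?_⟩
    nlinarith
  have h7 : √G * (√n * (η / ρ ^ 2) * ‖c‖) ≤ n * η * (3 / 2) * Q * G / s := by
    calc √G * (√n * (η / ρ ^ 2) * ‖c‖) = √n * (η / ρ ^ 2) * (√G * ‖c‖) := by ring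
      _ ≤ n * (η / ρ ^ 2) * ((3 / 2 * (Q * ρ ^ 2 / s)) * G) := by
        refine mul_le_mul (mul_le_mul_of_nonneg_right h6 (by positivity))
          (h2.trans (mul_le_mul_of_nonneg_right h4 hG)) (by positivity) (by positivity)
      _ = _ := by field_simp
  have h8 : η / ρ ^ 2 * G ≤ n * η * Q * G / s := by
    have h9 : 1 / ρ ^ 2 ≤ Q / s := by
      rw [div_le_div_iff₀ hρ2 hs]; linarith
    calc η / ρ ^ 2 * G = η * G * (1 / ρ ^ 2) := by ring
      _ ≤ η * G * (Q / s) := mul_le_mul_of_nonneg_left h9 (by positivity)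
      _ ≤ n * (η * G * (Q / s)) := by
        have : 0 ≤ η * G * (Q / s) := by positivity
        nlinarith
      _ = _ := by ring
  have e : 5 * n * Q * η * G / s = 2 * (n * η * (3 / 2) * Q * G / s) + 2 * (n * η * Q * G / s) := by
    ring
  rw [e]
  have h10 : 2 * (η / ρ ^ 2) * G = 2 * (η / ρ ^ 2 * G) := by ring
  rw [h10]
  linarith

/-- **(P1)** comparison of the forms at two times -/
theorem G_two (h : Env m n K o A p) (hu : Cfg m n K o p R Q η ρ u uu) (hQ : 1 ≤ Q) (hn : 1 ≤ n)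
    (hx : x ∈ ball o (R * ρ)) (ht : 0 < t) (hT : TTx m K p Q ε ρ u x t) (hε : ε ≤ 1 / 16)
    (hη : 0 ≤ η) (hη1 : (1 + 24 * n) * η ≤ 1 / 2) {s₁ s₂ : ℝ} (h1 : t ≤ s₁) (h2 : s₁ ≤ s₂)
    (h3 : s₂ ≤ Q * ρ ^ 2) (c : E n) :
    Gm m p u s₂ x c c ≤ (s₂ / s₁) ^ (2 * ε + 5 * n * Q * η) * Gm m p u s₁ x c c ∧
    Gm m p u s₁ x c c ≤ (s₂ / s₁) ^ (2 * ε + 5 * n * Q * η) * Gm m p u s₂ x c c := by
  refine growth_two (g := fun s => Gm m p u s x c c) ht
    (fun s k1 k2 => hasDeriv_Gm h hu x c (ht.trans_le k1)) ?_ h1 h2 h3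
  intro s k1 k2
  have hs := ht.trans_le k1
  have e1 := deriv_near h hu x c hs
  have e2 := Er_rel h hu hQ hn hx ht hT hε hη hη1 k1 k2 c
  have e3 := hT s k1 k2 c
  have hg := gm_nonneg h hu x c hs
  have e4 : 2 * gm m K p u s x c c ≤ 2 * ε * Gm m p u s x c c / s := by
    rw [le_div_iff₀ hs]; linarith
  have e5 : (2 * ε + 5 * n * Q * η) * Gm m p u s x c c / s
      = 2 * ε * Gm m p u s x c c / s + 5 * n * Q * η * Gm m p u s x c c / s := by ring
  rw [e5, add_assoc]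
  refine (abs_add_le _ _).trans ?_
  rw [abs_of_nonneg (by positivity)]
  linarith

end env

end Vale.Agent.P242.H597
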