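import Vale.Agent.P242.H597.Pre2

/-! P242, A4-PRE, part 3 (helper597): monotonicity of the means of `Γ(f,f)`, almost everywhere bound
of `Γ(f,f)` by its means, nondegeneracy. -/

set_option linter.all false

open MeasureTheory Filter Topology Set
open scoped ENNReal NNReal

universe u

namespace Vale.Agent.P242.H597

open Vale.Agent.P233

variable {M : Type u} [MeasurableSpace M] {m : Measure M} {C : Calc m}

section

variable (hC : IsGamma C) {κ : ℝ} (hB : C.BEi κ)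
variable {f : M →ₘ[m] ℝ} {φ : ℝ → M →ₘ[m] ℝ} (hφ : Cen C φ)

include hC hB hφ

/-- derivative of the means of `Γ(f,f)` -/
theorem hasDeriv_avΓ (hf : f ∈ C.Test) {s : ℝ} (hs : 0 < s) :
    HasDerivAt (fun s => I (φ s * C.Γ f f)) (2 * C.NN κ f f (φ s)
      + 2 * I (φ s * C.Γ f (C.lap f)) + 2 * κ * I (φ s * C.Γ f f)) s := by
  have hD := hC.toIsDir
  have hF := hC.Γ_mem hB hf hf
  have h1 := hφ.hasDeriv_av hD hs (hC.memLp _ hF.1)
  have h2 := hφ.I_lap_av hD hs hF.1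
  rw [h2] at h1
  convert h1 using 1
  have e1 : C.Γ f (C.lap f) + C.Γ f (C.lap f) = (2 : ℝ) • C.Γ f (C.lap f) := by algebra
  unfold Calc.NN
  rw [e1]
  have : φ s * (2 : ℝ) • C.Γ f (C.lap f) = (2 : ℝ) • (φ s * C.Γ f (C.lap f)) := by algebra
  rw [this, I_smul]
  ring

/-- the error terms of the mean value inequality -/
noncomputable def Er (C : Calc m) (κ : ℝ) (f φ : M →ₘ[m] ℝ) : ℝ :=
  2 * I (φ * |C.Γ f (C.lap f)|) + 2 * |κ| * I (φ * C.Γ f f)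

omit hC hB hφ in
theorem Gb_eq (f φ : M →ₘ[m] ℝ) : Gb C κ f φ = 2 * C.NN κ f f φ + Er C κ f φ := by
  unfold Gb Er; ring

theorem abs_er_le (hf : f ∈ C.Test) {s : ℝ} (hs : 0 < s) :
    |2 * I (φ s * C.Γ f (C.lap f)) + 2 * κ * I (φ s * C.Γ f f)| ≤ Er C κ f (φ s) := by
  have hD := hC.toIsDir
  have fA := hC.test_A hf
  have hg1 : MemLp (C.Γ f (C.lap f)) 1 m := hC.Γ_mem1 fA.1 (hC.test_lap_mem hf)
  have h0 := hφ.nonneg s hs
  have h1 := abs_I_mul_le (a := φ s) (b := C.Γ f (C.lap f)) (φ := φ s)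
    (mem_mul_top (hφ.top s hs) (ab_mem hg1)) le_rfl (by
      rw [le_iff_ae]
      filter_upwards [neg_ae (φ s), nonneg_iff_ae.1 h0] with x u1 u2
      rw [u1]; linarith)
  have h2 : 0 ≤ I (φ s * C.Γ f f) := I_nonneg (mul_nonneg h0 (hC.nonneg f fA.1))
  unfold Er
  calc |2 * I (φ s * C.Γ f (C.lap f)) + 2 * κ * I (φ s * C.Γ f f)|
      ≤ |2 * I (φ s * C.Γ f (C.lap f))| + |2 * κ * I (φ s * C.Γ f f)| := abs_add_le _ _
    _ = 2 * |I (φ s * C.Γ f (C.lap f))| + 2 * |κ| * I (φ s * C.Γ f f) := by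
        rw [abs_mul, abs_mul, abs_mul, abs_of_nonneg h2]; norm_num
    _ ≤ _ := by linarith

/-- almost monotonicity of the means of `Γ(f,f)` -/
theorem av_le (hf : f ∈ C.Test) {s t E : ℝ} (hs : 0 < s) (hst : s ≤ t)
    (hE : ∀ r ∈ Ioo s t, Er C κ f (φ r) ≤ E) :
    I (φ s * C.Γ f f) ≤ I (φ t * C.Γ f f) + (t - s) * E := by
  rcases hst.eq_or_lt with rfl | hlt
  · simp
  have hder : ∀ r ∈ Ioo s t, HasDerivAt (fun s => I (φ s * C.Γ f f)) (2 * C.NN κ f f (φ r)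
      + 2 * I (φ r * C.Γ f (C.lap f)) + 2 * κ * I (φ r * C.Γ f f)) r := fun r hr =>
    hasDeriv_avΓ hC hB hφ hf (hs.trans hr.1)
  have hcont : ContinuousOn (fun s => I (φ s * C.Γ f f)) (Icc s t) := fun r hr =>
    (hasDeriv_avΓ hC hB hφ hf (hs.trans_le hr.1)).continuousAt.continuousWithinAt
  obtain ⟨c, hc, hc2⟩ := exists_hasDerivAt_eq_slope _ _ hlt hcont hder
  have hc0 : 0 < c := hs.trans hc.1
  have h1 := hC.NN_nonneg hB hf (hφ.memA hC.toIsDir hc0) (hφ.nonneg c hc0)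
  have h2 := abs_er_le hC hB hφ hf hc0
  have h3 := hE c hc
  rw [eq_div_iff (by linarith : t - s ≠ 0)] at hc2
  have h4 := (abs_le.1 h2).1
  have h5 : 0 < t - s := by linarith
  nlinarith

/-- growth of the means of `Γ(f,f)` -/
theorem av_ge (hf : f ∈ C.Test) {s t E : ℝ} (hs : 0 < s) (hst : s ≤ t)
    (hE : ∀ r ∈ Ioo s t, Gb C κ f (φ r) ≤ E) :
    I (φ t * C.Γ f f) ≤ I (φ s * C.Γ f f) + (t - s) * E := by
  rcases hst.eq_or_lt with rfl | hlt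
  · simp
  have hder : ∀ r ∈ Ioo s t, HasDerivAt (fun s => I (φ s * C.Γ f f)) (2 * C.NN κ f f (φ r)
      + 2 * I (φ r * C.Γ f (C.lap f)) + 2 * κ * I (φ r * C.Γ f f)) r := fun r hr =>
    hasDeriv_avΓ hC hB hφ hf (hs.trans hr.1)
  have hcont : ContinuousOn (fun s => I (φ s * C.Γ f f)) (Icc s t) := fun r hr =>
    (hasDeriv_avΓ hC hB hφ hf (hs.trans_le hr.1)).continuousAt.continuousWithinAt
  obtain ⟨c, hc, hc2⟩ := exists_hasDerivAt_eq_slope _ _ hlt hcont hder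
  have hc0 : 0 < c := hs.trans hc.1
  have h2 := abs_er_le hC hB hφ hf hc0
  have h3 := hE c hc
  rw [Gb_eq] at h3
  rw [eq_div_iff (by linarith : t - s ≠ 0)] at hc2
  have h4 := (abs_le.1 h2).2
  have h5 : 0 < t - s := by linarith
  nlinarith

/-- Harnack for `Gb` -/
theorem Gb_harn (hf : f ∈ C.Test) {a b : M →ₘ[m] ℝ} {c : ℝ} (ha : a ∈ C.A) (hb : b ∈ C.A)
    (hle : a ≤ c • b) : Gb C κ f a ≤ c * Gb C κ f b := by
  have hD := hC.toIsDir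
  have fA := hC.test_A hf
  have hcb : c • b ∈ C.A := hD.A_smul c hb
  have h1 : C.NN κ f f a ≤ c * C.NN κ f f b := by
    have h := hC.NN_nonneg hB (φ := c • b - a) hf (hD.A_sub hcb ha) (sub_nonneg.2 hle)
    have e : c • b - a = c • b + (-1 : ℝ) • a := by algebra
    rw [e, hC.NN_add_φ hB hf hf hcb (hD.A_smul (-1) ha), hC.NN_smul_φ hB _ hf hf hb,
      hC.NN_smul_φ hB _ hf hf ha] at h
    linarith
  have key : ∀ G : M →ₘ[m] ℝ, MemLp G 1 m → 0 ≤ G → I (a * G) ≤ c * I (b * G) := by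
    intro G hG h0
    rw [← I_smul]
    refine I_mono (mem_mul_top ha.2 hG) (mem_smul _ (mem_mul_top hb.2 hG)) ?_
    rw [← smul_mul_assoc]
    exact mul_le_mul_of_nonneg_right hle h0
  have hg1 : MemLp (C.Γ f (C.lap f)) 1 m := hC.Γ_mem1 fA.1 (hC.test_lap_mem hf)
  have h2 := key _ (ab_mem hg1) (ab_nonneg _)
  have h3 := key _ (hC.mem1 f fA.1) (hC.nonneg f fA.1)
  unfold Gb
  have h4 := mul_le_mul_of_nonneg_left h3 (by positivity : 0 ≤ 2 * |κ|)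
  nlinarith

end

/-- **Almost everywhere bound** of `Γ(f,f)` by its means at the scale `t`. -/
theorem ae_le_av (hC : IsGamma C) {κ : ℝ} (hB : C.BEi κ) {f : M →ₘ[m] ℝ} (hf : f ∈ C.Test)
    {Φ : M → ℝ → M →ₘ[m] ℝ} (hΦ : ∀ z, Cen C (Φ z))
    (hrep : ∀ s, 0 < s → ∀ g : M →ₘ[m] ℝ, MemLp g 2 m → ∀ᵐ z ∂m, C.P s g z = I (Φ z s * g))
    {U : Set M} {t E : ℝ} (ht : 0 < t) (hE : ∀ z ∈ U, ∀ r, 0 < r → r ≤ t → Er C κ f (Φ z r) ≤ E) :
    ∀ᵐ z ∂m, z ∈ U → C.Γ f f z ≤ I (Φ z t * C.Γ f f) + t * E := by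
  have hD := hC.toIsDir
  have hF := hC.Γ_mem hB hf hf
  have hF2 := hC.memLp _ hF.1
  set F := C.Γ f f with hFd
  have hs : ∀ j : ℕ, 0 < t * ((j : ℝ) + 1)⁻¹ := fun j => by positivity
  have hs1 : ∀ j : ℕ, t * ((j : ℝ) + 1)⁻¹ ≤ t := fun j => by
    have : ((j : ℝ) + 1)⁻¹ ≤ 1 := inv_le_one_of_one_le₀ (by
      have : (0 : ℝ) ≤ j := Nat.cast_nonneg j
      linarith)
    nlinarith
  have hlim : Tendsto (fun j : ℕ => t * ((j : ℝ) + 1)⁻¹) atTop (𝓝 0) := by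
    have : Tendsto (fun j : ℕ => ((j : ℝ) + 1)⁻¹) atTop (𝓝 0) := by
      have := tendsto_one_div_add_atTop_nhds_zero_nat (𝕜 := ℝ)
      simpa using this
    simpa using this.const_mul t
  have hL2 : Tendsto (fun j : ℕ => I ((C.P (t * ((j : ℝ) + 1)⁻¹) F - F) ^ 2)) atTop (𝓝 0) := by
    have h := (hD.P_cont hF2 0).comp hlim
    rw [hD.P_zero_time hF2] at h
    exact h
  obtain ⟨ns, hns, hae⟩ := exists_subseq_of_I_sq (fun j => hD.P_mem2 _ hF2) hF2 hL2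
  have hrep' : ∀ᵐ z ∂m, ∀ j : ℕ, C.P (t * ((j : ℝ) + 1)⁻¹) F z
      = I (Φ z (t * ((j : ℝ) + 1)⁻¹) * F) := ae_all_iff.2 fun j => hrep _ (hs j) F hF2
  filter_upwards [hae, hrep'] with z h1 h2 hz
  refine le_of_tendsto' h1 fun j => ?_
  rw [h2]
  have hE0 : 0 ≤ E := by
    refine le_trans ?_ (hE z hz t ht le_rfl)
    unfold Er
    have h0 := (hΦ z).nonneg t ht
    have e1 : 0 ≤ I (Φ z t * |C.Γ f (C.lap f)|) := I_nonneg (mul_nonneg h0 (ab_nonneg _))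
    have e2 : 0 ≤ I (Φ z t * C.Γ f f) :=
      I_nonneg (mul_nonneg h0 (hC.nonneg f (hC.test_A hf).1))
    positivity
  have h3 := av_le hC hB (hΦ z) hf (hs (ns j)) (hs1 (ns j)) (E := E) fun r hr =>
    hE z hz r ((hs _).trans hr.1) hr.2.le
  have h4 := hs (ns j)
  nlinarith

/-- **Nondegeneracy**, by integration by parts: a function with `|∇v|² ≈ |c|²` in the mean is not
close to a constant. -/
theorem nd_parts (hC : IsGamma C) {κ : ℝ} (hB : C.BEi κ) {v : M →ₘ[m] ℝ} (hv : v ∈ C.Test)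
    {φ : ℝ → M →ₘ[m] ℝ} (hφ : Cen C φ) {s : ℝ} (hs : 0 < s) (a : ℝ) {B : ℝ} {ψ : M →ₘ[m] ℝ}
    (hψ1 : MemLp ψ 1 m) (hk : ∀ᵐ z ∂m, C.gr (φ s) z * C.gr v z ≤ B * ψ z) :
    I (φ s * C.Γ v v) ≤ B * I (ψ * |v - a • (1 : M →ₘ[m] ℝ)|)
      + |I (φ s * (v - a • (1 : M →ₘ[m] ℝ)) * C.lap v)| := by
  have hD := hC.toIsDir
  have vA := hC.test_A hv
  have hφA := hφ.memA hD hs
  have hφ1 := hφ.mem1 s hs
  set g : M →ₘ[m] ℝ := φ s * v - a • φ s with hg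
  have hgA : g ∈ C.A := hD.A_sub (hD.mul_mem_A hφA vA) (hD.A_smul a hφA)
  have eg : φ s * (v - a • (1 : M →ₘ[m] ℝ)) = g := by rw [hg]; algebra
  have hw : MemLp (v - a • (1 : M →ₘ[m] ℝ) : M →ₘ[m] ℝ) ∞ m := mem_sub vA.2 (mem_smul _ mem_top_one)
  have h1 : I (C.Γ v g) = -I (C.lap v * g) := (hC.test_isLap hv).2.2 _ hgA.1
  have h2 : C.Γ v g = φ s * C.Γ v v + (v - a • (1 : M →ₘ[m] ℝ)) * C.Γ v (φ s) := by
    rw [hg, hD.Γ_sub_right vA.1 (hD.mul_mem_A hφA vA).1 (hD.A_smul a hφA).1,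
      hD.Γ_mul_right hφA vA vA.1, hD.Γ_smul_right a vA.1 hφA.1]
    algebra
  have hG1 : MemLp (φ s * C.Γ v v : M →ₘ[m] ℝ) 1 m := mem_mul_top hφA.2 (hC.mem1 v vA.1)
  have hG2 : MemLp ((v - a • (1 : M →ₘ[m] ℝ)) * C.Γ v (φ s) : M →ₘ[m] ℝ) 1 m :=
    mem_mul_top hw (hC.Γ_mem1 vA.1 hφA.1)
  rw [h2, I_add hG1 hG2] at h1
  have h3 : |I ((v - a • (1 : M →ₘ[m] ℝ)) * C.Γ v (φ s))|
      ≤ B * I (ψ * |v - a • (1 : M →ₘ[m] ℝ)|) := by
    have hi : MemLp (ψ * |v - a • (1 : M →ₘ[m] ℝ)| : M →ₘ[m] ℝ) 1 m := mem_top_mul hψ1 (ab_mem hw)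
    rw [← I_smul]
    unfold I
    rw [← Real.norm_eq_abs]
    refine norm_integral_le_of_norm_le (int_of_mem (mem_smul B hi)) ?_
    filter_upwards [hk, hD.Γ_abs_ae vA.1 hφA.1, C.gr_ae v, C.gr_ae (φ s),
      mul_ae (v - a • (1 : M →ₘ[m] ℝ)) (C.Γ v (φ s)),
      smul_ae (ψ * |v - a • (1 : M →ₘ[m] ℝ)|) B, mul_ae ψ |v - a • (1 : M →ₘ[m] ℝ)|,
      abs_ae' (v - a • (1 : M →ₘ[m] ℝ))] with x u1 u2 u3 u4 u5 u6 u7 u8
    rw [Real.norm_eq_abs, u5, u6, u7, u8, abs_mul]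
    rw [u3, u4] at u1
    have h5 : |C.Γ v (φ s) x| ≤ B * ψ x := by
      refine u2.trans ?_
      rw [mul_comm]; exact u1
    have h6 := abs_nonneg ((v - a • (1 : M →ₘ[m] ℝ)) x)
    nlinarith
  have h4 : I (C.lap v * g) = I (φ s * (v - a • (1 : M →ₘ[m] ℝ)) * C.lap v) := by
    rw [eg, mul_comm]
  rw [h4] at h1
  have h5 := (abs_le.1 h3).1
  have h6 := neg_abs_le (I (φ s * (v - a • (1 : M →ₘ[m] ℝ)) * C.lap v))
  linarith

end Vale.Agent.P242.H597
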