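import Vale.Agent.P242.H937.Grad1
import Vale.Agent.P242.H597.Pre3

/-! P242, A4-PRE (helper597): Kato inequality for `Γ(f,f)`, from the improved Bochner inequality of
helper937: `I (φ |∇ Γ(f,f)|) ≤ 2 √(I (φ Γ(f,f))) √(NN f f φ)`. -/

set_option linter.all false

open MeasureTheory Filter Topology Set
open scoped ENNReal NNReal

universe u

namespace Vale.Agent.P242.H597

open Vale.Agent.P233 Vale.Agent.P242.H937

variable {M : Type u} [MeasurableSpace M] {m : Measure M} {C : Calc m}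

theorem le_two_sqrt {X U V : ℝ} (hU : 0 ≤ U) (hV : 0 ≤ V)
    (h : ∀ lam : ℝ, 0 < lam → X ≤ lam / 2 * U + 2 * V / lam) : X ≤ 2 * √U * √V := by
  have key : ∀ d : ℝ, 0 < d → X ≤ 2 * √(U + d) * √(V + d) := by
    intro d hd
    have a1 : 0 < √(U + d) := Real.sqrt_pos.2 (by linarith)
    have a2 : 0 < √(V + d) := Real.sqrt_pos.2 (by linarith)
    have s1 : √(U + d) ^ 2 = U + d := Real.sq_sqrt (by linarith)
    have s2 : √(V + d) ^ 2 = V + d := Real.sq_sqrt (by linarith)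
    have h1 := h (2 * √(V + d) / √(U + d)) (by positivity)
    refine h1.trans ?_
    have b1 : 2 * √(V + d) / √(U + d) / 2 * U ≤ √(V + d) * √(U + d) := by
      have : 2 * √(V + d) / √(U + d) / 2 * U = √(V + d) * (U / √(U + d)) := by ring
      rw [this]
      refine mul_le_mul_of_nonneg_left ?_ a2.le
      rw [div_le_iff₀ a1]
      nlinarith
    have b2 : 2 * V / (2 * √(V + d) / √(U + d)) ≤ √(V + d) * √(U + d) := by
      have : 2 * V / (2 * √(V + d) / √(U + d)) = √(U + d) * (V / √(V + d)) := by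
        field_simp
      rw [this, mul_comm (√(V + d))]
      refine mul_le_mul_of_nonneg_left ?_ a1.le
      rw [div_le_iff₀ a2]
      nlinarith
    linarith
  have hc : Continuous fun d : ℝ => 2 * √(U + d) * √(V + d) := by fun_prop
  have h0 : Tendsto (fun d : ℝ => 2 * √(U + d) * √(V + d)) (𝓝[>] 0) (𝓝 (2 * √(U + 0) * √(V + 0))) :=
    (hc.tendsto 0).mono_left nhdsWithin_le_nhds
  rw [add_zero, add_zero] at h0
  exact ge_of_tendsto h0 (by filter_upwards [self_mem_nhdsWithin] with d hd using key d hd)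

section

variable (hC : IsGamma C) {κ : ℝ} (hB : C.BEi κ) [SigmaFinite m] {b φ : M →ₘ[m] ℝ}

include hC hB

/-- improved Bochner inequality in the form used here -/
theorem kato_sq (hb : b ∈ C.Test) (hφ : φ ∈ C.A) (h0 : 0 ≤ φ) {a : ℝ} (ha : 0 < a) :
    I (φ * qq ha (C.Γ b b) ^ 2 * C.Γ (C.Γ b b) (C.Γ b b)) ≤ 4 * C.NN κ b b φ := by
  have hD := hC.toIsDir
  have bA := hC.test_A hb
  set v := C.Γ b b with hv
  have vA : v ∈ C.A := hC.Γ_mem hB hb hb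
  have v0 : 0 ≤ v := hD.nonneg _ bA.1
  set q := qq ha v with hq
  have q0 : 0 ≤ q := qq_nonneg ha
  have qt : MemLp q ∞ m := qq_top ha
  have q2t : MemLp (q ^ 2 : M →ₘ[m] ℝ) ∞ m := by rw [sq]; exact mem_mul_top qt qt
  have hvv1 := hD.mem1 _ vA.1
  have hst : MemLp (-((4 : ℝ)⁻¹ • q ^ 2) : M →ₘ[m] ℝ) ∞ m := mem_neg (mem_smul _ q2t)
  have h1 := impr1 hC hB hb vA.1 hst hφ h0
  have nA : MemLp (φ * q ^ 2 * C.Γ v v : M →ₘ[m] ℝ) 1 m :=
    mem_mul_top (mem_mul_top hφ.2 q2t) hvv1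
  set A := I (φ * q ^ 2 * C.Γ v v) with hA
  have e1 : I (φ * -((4 : ℝ)⁻¹ • q ^ 2) * C.Γ v v) = -(4 : ℝ)⁻¹ * A := by
    rw [hA, ← I_smul]; congr 1; algebra
  have hbv2 : MemLp (C.Γ b v) 2 m := hD.Γ_mem2 bA.1 (hC.test_Γ_top hb) vA.1
  have e2 : I (φ * (-((4 : ℝ)⁻¹ • q ^ 2)) ^ 2 * (v * C.Γ v v + C.Γ b v ^ 2)) ≤ (8 : ℝ)⁻¹ * A := by
    rw [hA, ← I_smul]
    refine I_mono (mem_mul_top (mem_mul_top hφ.2 ?_) (mem_add (mem_mul_top vA.2 hvv1)
      (mem_sq hbv2))) (mem_smul _ nA) ?_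
    · rw [sq]; exact mem_mul_top hst hst
    have e3 : φ * (-((4 : ℝ)⁻¹ • q ^ 2)) ^ 2 * (v * C.Γ v v + C.Γ b v ^ 2)
        = (φ * q ^ 2) * ((16 : ℝ)⁻¹ • (q ^ 2 * (v * C.Γ v v + C.Γ b v ^ 2))) := by algebra
    have e4 : (8 : ℝ)⁻¹ • (φ * q ^ 2 * C.Γ v v) = (φ * q ^ 2) * ((8 : ℝ)⁻¹ • C.Γ v v) := by algebra
    rw [e3, e4]
    refine mul_le_mul_of_nonneg_left ?_ (mul_nonneg h0 (pow_nonneg q0 2))
    rw [le_iff_ae]
    filter_upwards [smul_ae (q ^ 2 * (v * C.Γ v v + C.Γ b v ^ 2)) (16 : ℝ)⁻¹,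
      mul_ae (q ^ 2) (v * C.Γ v v + C.Γ b v ^ 2), add_ae (v * C.Γ v v) (C.Γ b v ^ 2),
      mul_ae v (C.Γ v v), sq_ae (C.Γ b v), sq_ae q, smul_ae (C.Γ v v) (8 : ℝ)⁻¹,
      qq_ae ha v0, nonneg_iff_ae.1 v0, hD.Γ_nonneg_ae vA.1, hD.Γ_cs_ae bA.1 vA.1]
      with x b1 b2 b3 b4 b5 b6 b7 b8 b9 b10 b11
    rw [b1, b2, b3, b4, b5, b6, b7, hq, b8, inv_pow, Real.sq_sqrt (by positivity)]
    have h3 : v x * C.Γ v v x + C.Γ b v x ^ 2 ≤ 2 * ((v x + a) * C.Γ v v x) := by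
      have : 0 ≤ a * C.Γ v v x := mul_nonneg ha.le b10
      have h4 : C.Γ b v x ^ 2 ≤ v x * C.Γ v v x := b11
      linarith
    have h5 : 0 < v x + a := by positivity
    calc (16 : ℝ)⁻¹ * ((v x + a)⁻¹ * (v x * C.Γ v v x + C.Γ b v x ^ 2))
        ≤ (16 : ℝ)⁻¹ * ((v x + a)⁻¹ * (2 * ((v x + a) * C.Γ v v x))) := by gcongr
      _ = (8 : ℝ)⁻¹ * C.Γ v v x := by field_simp; ring
  rw [e1] at h1
  linarith only [h1, e2]

/-- **Kato inequality**: the mean of `|∇ Γ(f,f)|` -/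
theorem kato (hb : b ∈ C.Test) (hφ : φ ∈ C.A) (hφ1 : MemLp φ 1 m) (h0 : 0 ≤ φ) :
    I (φ * C.gr (C.Γ b b)) ≤ 2 * √(I (φ * C.Γ b b)) * √(C.NN κ b b φ) := by
  have hD := hC.toIsDir
  have bA := hC.test_A hb
  set v := C.Γ b b with hv
  have vA : v ∈ C.A := hC.Γ_mem hB hb hb
  have v0 : 0 ≤ v := hD.nonneg _ bA.1
  have hN : 0 ≤ C.NN κ b b φ := hC.NN_nonneg hB hb hφ h0
  have hU : 0 ≤ I (φ * v) := I_nonneg (mul_nonneg h0 v0)
  have hvv1 := hD.mem1 _ vA.1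
  have hg2 := gr_mem2 hC vA.1
  have hφ2 := hC.memLp _ hφ.1
  refine le_two_sqrt hU hN fun lam hlam => ?_
  have key : ∀ a : ℝ, 0 < a → I (φ * C.gr v) ≤ lam / 2 * (I (φ * v) + a * I φ)
      + 2 * C.NN κ b b φ / lam := by
    intro a ha
    set q := qq ha v with hq
    have qt : MemLp q ∞ m := qq_top ha
    have q2t : MemLp (q ^ 2 : M →ₘ[m] ℝ) ∞ m := by rw [sq]; exact mem_mul_top qt qt
    have h1 := kato_sq hC hB hb hφ h0 ha
    rw [← hv, ← hq] at h1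
    have n1 : MemLp (φ * v : M →ₘ[m] ℝ) 1 m := mem_mul_top hφ.2 (hD.mem1 _ bA.1)
    have n2 : MemLp (φ * q ^ 2 * C.Γ v v : M →ₘ[m] ℝ) 1 m :=
      mem_mul_top (mem_mul_top hφ.2 q2t) hvv1
    have h2 : I (φ * C.gr v) ≤ I ((lam / 2) • (φ * v + a • φ) + (2 * lam)⁻¹ • (φ * q ^ 2 * C.Γ v v)) := by
      refine I_mono (mem_mul_22 hφ2 hg2)
        (mem_add (mem_smul _ (mem_add n1 (mem_smul _ hφ1))) (mem_smul _ n2)) ?_
      rw [le_iff_ae]
      filter_upwards [mul_ae φ (C.gr v), C.gr_ae v,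
        add_ae ((lam / 2) • (φ * v + a • φ)) ((2 * lam)⁻¹ • (φ * q ^ 2 * C.Γ v v)),
        smul_ae (φ * v + a • φ) (lam / 2), add_ae (φ * v) (a • φ), mul_ae φ v, smul_ae φ a,
        smul_ae (φ * q ^ 2 * C.Γ v v) (2 * lam)⁻¹, mul_ae (φ * q ^ 2) (C.Γ v v), mul_ae φ (q ^ 2),
        sq_ae q, qq_ae ha v0, nonneg_iff_ae.1 v0, hD.Γ_nonneg_ae vA.1, nonneg_iff_ae.1 h0]
        with x b1 b2 b3 b4 b5 b6 b7 b8 b9 b10 b11 b12 b13 b14 b15
      rw [b1, b2, b3, b4, b5, b6, b7, b8, b9, b10, b11, hq, b12, inv_pow,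
        Real.sq_sqrt (by positivity)]
      have h5 : 0 < v x + a := by positivity
      set G := C.Γ v v x with hG
      have h6 : √G ≤ lam / 2 * (v x + a) + (2 * lam)⁻¹ * ((v x + a)⁻¹ * G) := by
        set w := √G with hw
        have hw2 : G = w ^ 2 := (Real.sq_sqrt b14).symm
        rw [hw2]
        have : lam / 2 * (v x + a) + (2 * lam)⁻¹ * ((v x + a)⁻¹ * w ^ 2) - w
            = (lam * (v x + a) - w) ^ 2 / (2 * lam * (v x + a)) := by
          field_simp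
          ring
        have h7 : 0 ≤ (lam * (v x + a) - w) ^ 2 / (2 * lam * (v x + a)) := by positivity
        linarith
      calc φ x * √G ≤ φ x * (lam / 2 * (v x + a) + (2 * lam)⁻¹ * ((v x + a)⁻¹ * G)) :=
            mul_le_mul_of_nonneg_left h6 b15
        _ = _ := by ring
    rw [I_add (mem_smul _ (mem_add n1 (mem_smul _ hφ1))) (mem_smul _ n2), I_smul, I_smul,
      I_add n1 (mem_smul _ hφ1), I_smul] at h2
    have h3 : (2 * lam)⁻¹ * I (φ * q ^ 2 * C.Γ v v) ≤ 2 * C.NN κ b b φ / lam := by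
      have : 2 * C.NN κ b b φ / lam = (2 * lam)⁻¹ * (4 * C.NN κ b b φ) := by
        field_simp; ring
      rw [this]
      exact mul_le_mul_of_nonneg_left h1 (by positivity)
    linarith
  have hc : Continuous fun a : ℝ => lam / 2 * (I (φ * v) + a * I φ) + 2 * C.NN κ b b φ / lam := by
    fun_prop
  have h4 : Tendsto (fun a : ℝ => lam / 2 * (I (φ * v) + a * I φ) + 2 * C.NN κ b b φ / lam)
      (𝓝[>] 0) (𝓝 (lam / 2 * (I (φ * v) + 0 * I φ) + 2 * C.NN κ b b φ / lam)) :=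
    (hc.tendsto 0).mono_left nhdsWithin_le_nhds
  rw [zero_mul, add_zero] at h4
  exact ge_of_tendsto h4 (by filter_upwards [self_mem_nhdsWithin] with d hd using key d hd)

end

end Vale.Agent.P242.H597
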