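import Vale.Agent.P242.H751.SS
import Vale.Agent.P242.H196.GamP
import Vale.Agent.P242.H990.Poin
import Vale.Agent.P242.H597.Kato

/-! P242, A4-PRE (helper597): first facts in the vocabulary of `Voc.lean`: the derivative in time of
`G_s(x)`, the error terms, bounds from `Cfg`. -/

set_option linter.all false

open MeasureTheory Filter Topology Set Metric
open scoped ENNReal NNReal InnerProductSpace

universe u

namespace Vale.Agent.P242.H597

open Vale.Agent.P233 Vale.Agent.P233.RA Vale.Agent.P242.H71 Vale.Agent.P242.H990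
  Vale.Agent.P242.H751

section abs

variable {M : Type u} [MeasurableSpace M] {m : Measure M} {C : Calc m}

theorem bei_mono (hC : IsGamma C) {κ κ' : ℝ} (h : κ' ≤ κ) (hB : C.BEi κ) : C.BEi κ' := by
  intro f g φ ψ h1 h2 h3 h4 h5 h6
  refine le_trans ?_ (hB f g φ ψ h1 h2 h3 h4 h5 h6)
  have hfW := h1.1
  have n0 := hC.nonneg f hfW
  refine I_mono (mem_mul_top h5 (mem_add (hC.toIsDir.Γ_mem1 hfW h2) (mem_smul _ (hC.mem1 f hfW))))
    (mem_mul_top h5 (mem_add (hC.toIsDir.Γ_mem1 hfW h2) (mem_smul _ (hC.mem1 f hfW)))) ?_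
  refine mul_le_mul_of_nonneg_left ?_ h4
  rw [le_iff_ae]
  filter_upwards [add_ae (C.Γ f g) (κ' • C.Γ f f), add_ae (C.Γ f g) (κ • C.Γ f f),
    smul_ae (C.Γ f f) κ', smul_ae (C.Γ f f) κ, nonneg_iff_ae.1 n0] with x a1 a2 a3 a4 a5
  rw [a1, a2, a3, a4]
  have := mul_le_mul_of_nonneg_right h a5
  linarith

/-- weighted Cauchy-Schwarz with the absolute value inside -/
theorem I_abs_Γ_le (hC : IsGamma C) {f g φ : M →ₘ[m] ℝ} (hφ : MemLp φ ∞ m) (h0 : 0 ≤ φ)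
    (hf : f ∈ C.W) (hg : g ∈ C.W) :
    I (φ * |C.Γ f g|) ≤ √(I (φ * C.Γ f f)) * √(I (φ * C.Γ g g)) := by
  have hU := H196.I_Γ_nonneg hC h0 hf
  have hV := H196.I_Γ_nonneg hC h0 hg
  have h1 : I (φ * |C.Γ f g|) ≤ 2 * √(I (φ * C.Γ f f)) * √(I (φ * C.Γ g g) / 4) := by
    refine le_two_sqrt hU (by positivity) fun lam hlam => ?_
    have e : lam / 2 * I (φ * C.Γ f f) + 2 * (I (φ * C.Γ g g) / 4) / lam
        = I ((lam / 2) • (φ * C.Γ f f) + (2 * lam)⁻¹ • (φ * C.Γ g g)) := by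
      rw [I_add (mem_smul _ (mem_mul_top hφ (hC.mem1 f hf)))
        (mem_smul _ (mem_mul_top hφ (hC.mem1 g hg))), I_smul, I_smul]
      field_simp
      ring
    rw [e]
    refine I_mono (mem_mul_top hφ (ab_mem (hC.Γ_mem1 hf hg)))
      (mem_add (mem_smul _ (mem_mul_top hφ (hC.mem1 f hf)))
        (mem_smul _ (mem_mul_top hφ (hC.mem1 g hg)))) ?_
    have hD := hC.toIsDir
    rw [le_iff_ae]
    filter_upwards [mul_ae φ (|C.Γ f g|), abs_ae' (C.Γ f g),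
      add_ae ((lam / 2) • (φ * C.Γ f f)) ((2 * lam)⁻¹ • (φ * C.Γ g g)),
      smul_ae (φ * C.Γ f f) (lam / 2), smul_ae (φ * C.Γ g g) (2 * lam)⁻¹, mul_ae φ (C.Γ f f),
      mul_ae φ (C.Γ g g), nonneg_iff_ae.1 h0, hD.Γ_abs_ae hf hg, hD.Γ_nonneg_ae hf,
      hD.Γ_nonneg_ae hg] with x a1 a2 a3 a4 a5 a6 a7 a8 a9 a10 a11
    rw [a1, a2, a3, a4, a5, a6, a7]
    have h2 : √(C.Γ f f x) * √(C.Γ g g x) ≤ lam / 2 * C.Γ f f x + (2 * lam)⁻¹ * C.Γ g g x := by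
      set a := √(C.Γ f f x) with ha
      set b := √(C.Γ g g x) with hb
      have ha2 : C.Γ f f x = a ^ 2 := (Real.sq_sqrt a10).symm
      have hb2 : C.Γ g g x = b ^ 2 := (Real.sq_sqrt a11).symm
      rw [ha2, hb2]
      have : lam / 2 * a ^ 2 + (2 * lam)⁻¹ * b ^ 2 - a * b = (lam * a - b) ^ 2 / (2 * lam) := by
        field_simp; ring
      have h7 : 0 ≤ (lam * a - b) ^ 2 / (2 * lam) := by positivity
      linarith
    calc φ x * |C.Γ f g x| ≤ φ x * (lam / 2 * C.Γ f f x + (2 * lam)⁻¹ * C.Γ g g x) :=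
          mul_le_mul_of_nonneg_left (a9.trans h2) a8
      _ = _ := by ring
  have h2 : √(I (φ * C.Γ g g) / 4) = √(I (φ * C.Γ g g)) / 2 := by
    rw [Real.sqrt_div hV, show (4 : ℝ) = 2 ^ 2 by norm_num, Real.sqrt_sq (by norm_num)]
  rw [h2] at h1
  linarith

/-- Minkowski for finite sums -/
theorem sqrt_I_Γ_sum_le (hC : IsGamma C) {φ : M →ₘ[m] ℝ} (hφ : MemLp φ ∞ m) (h0 : 0 ≤ φ)
    {ι : Type*} (S : Finset ι) (g : ι → M →ₘ[m] ℝ) (hg : ∀ i, g i ∈ C.W) (c : ι → ℝ) {B : ℝ}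
    (hB0 : 0 ≤ B) (hB : ∀ i, I (φ * C.Γ (g i) (g i)) ≤ B ^ 2) :
    (∑ i ∈ S, c i • g i) ∈ C.W ∧
      √(I (φ * C.Γ (∑ i ∈ S, c i • g i) (∑ i ∈ S, c i • g i))) ≤ (∑ i ∈ S, |c i|) * B := by
  classical
  induction S using Finset.induction_on with
  | empty =>
    simp only [Finset.sum_empty, zero_mul]
    refine ⟨hC.toIsDir.zero_mem, ?_⟩
    rw [hC.toIsDir.Γ_zero_left hC.toIsDir.zero_mem, mul_zero, I_zero, Real.sqrt_zero]
  | insert a S ha ih =>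
    rw [Finset.sum_insert ha, Finset.sum_insert ha]
    have h1 := hC.smul_mem (c a) _ (hg a)
    refine ⟨hC.add_mem _ h1 _ ih.1, (H196.I_Γ_add_le hC hφ h0 h1 ih.1).trans ?_⟩
    have h2 : √(I (φ * C.Γ (c a • g a) (c a • g a))) ≤ |c a| * B := by
      have e : C.Γ (c a • g a) (c a • g a) = (c a ^ 2) • C.Γ (g a) (g a) := by
        rw [hC.smul_left _ _ (hg a) _ h1, hC.toIsDir.Γ_smul_right _ (hg a) (hg a), smul_smul, sq]
      rw [e, mul_smul_comm, I_smul, Real.sqrt_mul (sq_nonneg _), Real.sqrt_sq_eq_abs]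
      refine mul_le_mul_of_nonneg_left ?_ (abs_nonneg _)
      exact Real.sqrt_le_iff.2 ⟨hB0, hB a⟩
    rw [add_mul]
    exact add_le_add h2 ih.2

end abs

theorem sum_abs_le {n : ℕ} (c : E n) : ∑ i, |c i| ≤ √n * ‖c‖ := by
  have h1 : (∑ i, |c i|) ^ 2 ≤ n * ‖c‖ ^ 2 := by
    have h2 := Finset.sum_mul_sq_le_sq_mul_sq Finset.univ (fun _ : Fin n => (1 : ℝ)) (fun i => |c i|)
    simp only [one_mul, one_pow, Finset.sum_const, Finset.card_univ, Fintype.card_fin,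
      nsmul_eq_mul, mul_one, sq_abs] at h2
    rw [EuclideanSpace.norm_eq]
    have h3 : √(∑ i, ‖c i‖ ^ 2) ^ 2 = ∑ i, c i ^ 2 := by
      rw [Real.sq_sqrt (by positivity)]
      simp
    rw [h3]
    exact h2
  have h4 : 0 ≤ ∑ i, |c i| := Finset.sum_nonneg fun i _ => abs_nonneg _
  have h5 : √((n : ℝ) * ‖c‖ ^ 2) = √n * ‖c‖ := by
    rw [Real.sqrt_mul (by positivity), Real.sqrt_sq (norm_nonneg _)]
  rw [← h5]
  exact Real.le_sqrt_of_sq_le h1

section env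

variable {M : Type u} [MetricSpace M] [CompleteSpace M] [SecondCountableTopology M]
  [MeasurableSpace M] [BorelSpace M] {m : Measure M} {n : ℕ} {K : ℝ} {o : M} {A : ℝ}
  {p : ℝ → M → M → ℝ}

theorem env_bei' (h : Env m n K o A p) : (sob m).BEi (-|K|) :=
  bei_mono (env_gamma h) (neg_abs_le K) (env_bei h)

theorem env_fin (h : Env m n K o A p) : ∀ (x : M) (r : ℝ), m (ball x r) < ∞ := by
  obtain ⟨θ, t⟩ := env_nsp2 h
  exact t.fin

theorem env_sf (h : Env m n K o A p) : SigmaFinite m := sigmaFinite_of_ball (env_fin h)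

theorem env_cen (h : Env m n K o A p) (x : M) : Cen (sob m) (fun s => ph m p s x) where
  mem2 s hs := ph_mem2 h.ker hs x
  top s hs := ph_top (env_gamma h) h.ker h.kb hs x
  nonneg s hs := ph_nonneg h.ker hs x
  mem1 s hs := ph_mem1 h.ker hs x
  mass s hs := I_ph h.ker hs x
  semi s t hs ht := P_ph (env_gamma h).toIsDir h.ker ht hs x

variable {R Q η ρ : ℝ} {u : Fin n → M →ₘ[m] ℝ} {uu : M → E n}

/-- derivative in time of `G_s(x)(c,c)` -/
theorem hasDeriv_Gm (h : Env m n K o A p) (hu : Cfg m n K o p R Q η ρ u uu) (x : M) (c : E n)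
    {s : ℝ} (hs : 0 < s) :
    HasDerivAt (fun s => Gm m p u s x c c) (2 * gm m K p u s x c c
      + 2 * PP m p s x ((sob m).Γ (uc u c) ((sob m).lap (uc u c)))
      + 2 * (-|K|) * Gm m p u s x c c) s :=
  hasDeriv_avΓ (env_gamma h) (env_bei' h) (env_cen h x) (uc_test (env_gamma h) hu c) hs

theorem Gm_nonneg (h : Env m n K o A p) (hu : Cfg m n K o p R Q η ρ u uu) (x : M) (c : E n)
    {s : ℝ} (hs : 0 < s) : 0 ≤ Gm m p u s x c c :=
  H196.I_Γ_nonneg (env_gamma h) (ph_nonneg h.ker hs x) (uc_W (env_gamma h) hu c)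

theorem gm_nonneg (h : Env m n K o A p) (hu : Cfg m n K o p R Q η ρ u uu) (x : M) (c : E n)
    {s : ℝ} (hs : 0 < s) : 0 ≤ gm m K p u s x c c :=
  (env_gamma h).NN_nonneg (env_bei' h) (uc_test (env_gamma h) hu c)
    (ph_A (env_gamma h) h.ker h.kb hs x) (ph_nonneg h.ker hs x)

/-- `P_s Γ(Δu_c,Δu_c)` -/
theorem lapc2 (h : Env m n K o A p) (hu : Cfg m n K o p R Q η ρ u uu) {x : M}
    (hx : x ∈ ball o (R * ρ)) {s : ℝ} (hs : 0 < s) (hs1 : s ≤ Q * ρ ^ 2) (hη : 0 ≤ η) (c : E n) :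
    (sob m).lap (uc u c) ∈ (sob m).W ∧
    √(PP m p s x ((sob m).Γ ((sob m).lap (uc u c)) ((sob m).lap (uc u c)))) ≤
      √n * (η / ρ ^ 2) * ‖c‖ := by
  have hC := env_gamma h
  have hρ := hu.ρ_pos
  have h1 := sqrt_I_Γ_sum_le hC (ph_top hC h.ker h.kb hs x) (ph_nonneg h.ker hs x) Finset.univ
    (fun i => (sob m).lap (u i)) (fun i => hC.test_lap_mem (hu.test i).1) (fun i => c i)
    (B := η / ρ ^ 2) (by positivity) (fun i => hu.lap2 x hx s hs hs1 i)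
  rw [← uc_lap hC hu c] at h1
  refine ⟨h1.1, h1.2.trans ?_⟩
  have h2 := mul_le_mul_of_nonneg_right (sum_abs_le c) (show 0 ≤ η / ρ ^ 2 by positivity)
  refine h2.trans (le_of_eq (by ring))

/-- `Γ(u_c,u_c) ≤ 4 n |c|²` -/
theorem Γc_le (h : Env m n K o A p) (hu : Cfg m n K o p R Q η ρ u uu) (c : E n) :
    ∀ᵐ z ∂m, (sob m).Γ (uc u c) (uc u c) z ≤ 4 * n * ‖c‖ ^ 2 := by
  have hC := env_gamma h
  have hD := hC.toIsDir
  have key : ∀ S : Finset (Fin n), (∑ i ∈ S, c i • u i) ∈ (sob m).W ∧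
      ∀ᵐ z ∂m, √((sob m).Γ (∑ i ∈ S, c i • u i) (∑ i ∈ S, c i • u i) z) ≤ (∑ i ∈ S, |c i|) * 2 := by
    intro S
    classical
    induction S using Finset.induction_on with
    | empty =>
      simp only [Finset.sum_empty, zero_mul]
      refine ⟨hD.zero_mem, ?_⟩
      rw [hD.Γ_zero_left hD.zero_mem]
      filter_upwards [zero_ae (M := M) (m := m)] with z hz
      rw [hz, Real.sqrt_zero]
    | insert a S ha ih =>
      rw [Finset.sum_insert ha, Finset.sum_insert ha]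
      have hua := (hC.test_A (hu.test a).1).1
      have h1 := hC.smul_mem (c a) _ hua
      refine ⟨hC.add_mem _ h1 _ ih.1, ?_⟩
      have h2 := le_iff_ae.1 (gr_add_le hC h1 ih.1)
      have e : (sob m).Γ (c a • u a) (c a • u a) = (c a ^ 2) • (sob m).Γ (u a) (u a) := by
        rw [hC.smul_left _ _ hua _ h1, hC.toIsDir.Γ_smul_right _ hua hua, smul_smul, sq]
      filter_upwards [h2, ih.2, (sob m).gr_ae (c a • u a + ∑ i ∈ S, c i • u i),
        (sob m).gr_ae (c a • u a), (sob m).gr_ae (∑ i ∈ S, c i • u i),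
        add_ae ((sob m).gr (c a • u a)) ((sob m).gr (∑ i ∈ S, c i • u i)),
        smul_ae ((sob m).Γ (u a) (u a)) (c a ^ 2), hu.grad a] with z a1 a2 a3 a4 a5 a6 a7 a8
      rw [a3, a6, a4, a5, e, a7, Real.sqrt_mul (sq_nonneg _), Real.sqrt_sq_eq_abs] at a1
      have h3 : √((sob m).Γ (u a) (u a) z) ≤ 2 := by
        rw [show (2 : ℝ) = √4 by
          rw [show (4 : ℝ) = 2 ^ 2 by norm_num, Real.sqrt_sq (by norm_num)]]
        exact Real.sqrt_le_sqrt a8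
      have h4 : |c a| * √((sob m).Γ (u a) (u a) z) ≤ |c a| * 2 :=
        mul_le_mul_of_nonneg_left h3 (abs_nonneg _)
      rw [add_mul]
      linarith
  filter_upwards [(key Finset.univ).2, hD.Γ_nonneg_ae (key Finset.univ).1] with z h1 h2
  have h3 := sum_abs_le c
  have h4 : √((sob m).Γ (uc u c) (uc u c) z) ≤ √n * ‖c‖ * 2 := by
    refine h1.trans (mul_le_mul_of_nonneg_right h3 (by norm_num))
  have h5 := Real.sq_sqrt h2
  have h6 : √((sob m).Γ (uc u c) (uc u c) z) ^ 2 ≤ (√n * ‖c‖ * 2) ^ 2 :=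
    pow_le_pow_left₀ (Real.sqrt_nonneg _) h4 2
  have h7 : √(n : ℝ) ^ 2 = n := Real.sq_sqrt (by positivity)
  have h8 : (√n * ‖c‖ * 2) ^ 2 = 4 * n * ‖c‖ ^ 2 := by
    rw [mul_pow, mul_pow, h7]; ring
  have h9 : √((sob m).Γ (uc u c) (uc u c) z) ^ 2 = (sob m).Γ (uc u c) (uc u c) z := h5
  rw [← h9, ← h8]
  exact h6

theorem Gm_le (h : Env m n K o A p) (hu : Cfg m n K o p R Q η ρ u uu) (x : M) (c : E n)
    {s : ℝ} (hs : 0 < s) : Gm m p u s x c c ≤ 4 * n * ‖c‖ ^ 2 := by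
  have hC := env_gamma h
  have h1 : Gm m p u s x c c ≤ I ((4 * n * ‖c‖ ^ 2) • ph m p s x) := by
    refine I_mono (PP_int_top h.ker hs x (Γ_top hC hu c c)) (mem_smul _ (ph_mem1 h.ker hs x)) ?_
    rw [le_iff_ae]
    filter_upwards [mul_ae (ph m p s x) ((sob m).Γ (uc u c) (uc u c)),
      smul_ae (ph m p s x) (4 * n * ‖c‖ ^ 2), Γc_le h hu c,
      nonneg_iff_ae.1 (ph_nonneg h.ker hs x)] with z a1 a2 a3 a4
    rw [a1, a2, mul_comm (4 * n * ‖c‖ ^ 2)]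
    exact mul_le_mul_of_nonneg_left a3 a4
  rwa [I_smul, I_ph h.ker hs x, mul_one] at h1

/-- the error terms, in terms of `G_s` -/
theorem Er_le (h : Env m n K o A p) (hu : Cfg m n K o p R Q η ρ u uu) {x : M}
    (hx : x ∈ ball o (R * ρ)) {s : ℝ} (hs : 0 < s) (hs1 : s ≤ Q * ρ ^ 2) (hη : 0 ≤ η) (c : E n) :
    Er (sob m) (-|K|) (uc u c) (ph m p s x) ≤
      2 * (√(Gm m p u s x c c) * (√n * (η / ρ ^ 2) * ‖c‖)) + 2 * (η / ρ ^ 2) * Gm m p u s x c c := by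
  have hC := env_gamma h
  have hρ := hu.ρ_pos
  obtain ⟨h1, h2⟩ := lapc2 h hu hx hs hs1 hη c
  have h3 := I_abs_Γ_le hC (ph_top hC h.ker h.kb hs x) (ph_nonneg h.ker hs x)
    (uc_W hC hu c) h1
  have hK : |K| ≤ η / ρ ^ 2 := by
    rw [le_div_iff₀ (by positivity)]; exact hu.Kρ
  have hG := Gm_nonneg h hu x c hs
  unfold Er
  rw [abs_neg, abs_abs]
  have h4 : I (ph m p s x * |(sob m).Γ (uc u c) ((sob m).lap (uc u c))|) ≤
      √(Gm m p u s x c c) * (√n * (η / ρ ^ 2) * ‖c‖) :=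
    h3.trans (mul_le_mul_of_nonneg_left h2 (Real.sqrt_nonneg _))
  have h5 : |K| * Gm m p u s x c c ≤ η / ρ ^ 2 * Gm m p u s x c c :=
    mul_le_mul_of_nonneg_right hK hG
  have e : I (ph m p s x * (sob m).Γ (uc u c) (uc u c)) = Gm m p u s x c c := rfl
  rw [e]
  linarith

/-- the error terms, crude -/
theorem Er_le' (h : Env m n K o A p) (hu : Cfg m n K o p R Q η ρ u uu) {x : M}
    (hx : x ∈ ball o (R * ρ)) {s : ℝ} (hs : 0 < s) (hs1 : s ≤ Q * ρ ^ 2) (hη : 0 ≤ η) (c : E n) :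
    Er (sob m) (-|K|) (uc u c) (ph m p s x) ≤ 12 * n * (η / ρ ^ 2) * ‖c‖ ^ 2 := by
  have hρ := hu.ρ_pos
  refine (Er_le h hu hx hs hs1 hη c).trans ?_
  have hG := Gm_le h hu x c hs
  have hG0 := Gm_nonneg h hu x c hs
  have h1 : √(Gm m p u s x c c) ≤ 2 * √n * ‖c‖ := by
    have e : √(4 * n * ‖c‖ ^ 2) = 2 * √n * ‖c‖ := by
      rw [Real.sqrt_mul (by positivity), Real.sqrt_sq (norm_nonneg _),
        Real.sqrt_mul (by norm_num), show (4 : ℝ) = 2 ^ 2 by norm_num, Real.sqrt_sq (by norm_num)]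
    rw [← e]
    exact Real.sqrt_le_sqrt hG
  have h7 : √(n : ℝ) * √n = n := Real.mul_self_sqrt (by positivity)
  have h2 : √(Gm m p u s x c c) * (√n * (η / ρ ^ 2) * ‖c‖) ≤ 2 * n * (η / ρ ^ 2) * ‖c‖ ^ 2 := by
    calc √(Gm m p u s x c c) * (√n * (η / ρ ^ 2) * ‖c‖)
        ≤ (2 * √n * ‖c‖) * (√n * (η / ρ ^ 2) * ‖c‖) :=
          mul_le_mul_of_nonneg_right h1 (by positivity)
      _ = 2 * (√n * √n) * (η / ρ ^ 2) * ‖c‖ ^ 2 := by ring
      _ = _ := by rw [h7]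
  have h3 : η / ρ ^ 2 * Gm m p u s x c c ≤ η / ρ ^ 2 * (4 * n * ‖c‖ ^ 2) :=
    mul_le_mul_of_nonneg_left hG (by positivity)
  nlinarith

end env

end Vale.Agent.P242.H597
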