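import Vale.Agent.P242.H597.EnvB

/-! P242, A4-PRE (helper597): oscillation of `Γ(u_c,u_c')` against the kernel at one centre, from the
transformation estimate, the Kato inequality and (K7). -/

set_option linter.all false

open MeasureTheory Filter Topology Set Metric
open scoped ENNReal NNReal InnerProductSpace

universe u

namespace Vale.Agent.P242.H597

open Vale.Agent.P233 Vale.Agent.P233.RA Vale.Agent.P242.H71 Vale.Agent.P242.H990
  Vale.Agent.P242.H751 Vale.Agent.P242.H155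

section env

variable {M : Type u} [MetricSpace M] [CompleteSpace M] [SecondCountableTopology M]
  [MeasurableSpace M] [BorelSpace M] {m : Measure M} {n : ℕ} {K : ℝ} {o : M} {A : ℝ}
  {p : ℝ → M → M → ℝ}

/-- domination of the mean at `(s,z)` by the mean at `(s',x)` -/
theorem PP_dom (h : Env m n K o A p) {Γ C₀ s s' : ℝ} {x x' : M} (hs : 0 < s)
    (h1 : 4 * A ^ 2 * s ≤ s') (h2 : s' ≤ Γ * s) (h3 : s' ≤ 1 / 2) (hx : dist x x' ≤ C₀ * √s)
    {F : M →ₘ[m] ℝ} (hF : 0 ≤ F) (hFt : MemLp F ∞ m) :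
    PP m p s x F ≤ cG n A Γ C₀ * Real.exp (2 * A * dist x o) * PP m p s' x' F := by
  have hs' : 0 < s' := hs.trans_le (h.kb.le_of_time hs h1)
  unfold PP
  rw [← I_smul]
  refine I_mono (PP_int_top h.ker hs x hFt) (mem_smul _ (PP_int_top h.ker hs' x' hFt)) ?_
  rw [le_iff_ae]
  filter_upwards [mul_ae (ph m p s x) F, ph_ae h.ker hs x, ph_ae h.ker hs' x',
    smul_ae (ph m p s' x' * F) (cG n A Γ C₀ * Real.exp (2 * A * dist x o)),
    mul_ae (ph m p s' x') F, nonneg_iff_ae.1 hF] with z a1 a2 a3 a4 a5 a6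
  rw [a1, a2, a4, a5, a3, ← mul_assoc]
  exact mul_le_mul_of_nonneg_right (h.kb.p_le hs h1 h2 h3 hx) a6

/-- (K7) for means -/
theorem PP_poinc (h : Env m n K o A p) {s : ℝ} (hs : 0 < s) {F : M →ₘ[m] ℝ} (hF : F ∈ (sob m).W)
    (x : M) : PP m p s x |F - PP m p s x F • (1 : M →ₘ[m] ℝ)| ≤
      2 * Real.exp (2 * |K| * s) * √(2 * s) * PP m p s x ((sob m).gr F) := by
  have := h.hyp.full
  have := env_sf h
  have h1 := poinc (env_fin h) (env_gamma h) (env_bei' h) h.ker hs hF x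
  rw [abs_neg, abs_abs] at h1
  have e1 : PP m p s x |F - PP m p s x F • (1 : M →ₘ[m] ℝ)|
      = H520.pt m p s (fun z => |F z - H520.pt m p s F x|) x := by
    rw [PP_eq_pt h.ker hs x F, PP_eq_pt h.ker hs]
    refine pt_congr h.ker ?_ s x
    filter_upwards [abs_ae' (F - H520.pt m p s F x • (1 : M →ₘ[m] ℝ)),
      sub_ae F (H520.pt m p s F x • (1 : M →ₘ[m] ℝ)), smul_ae (1 : M →ₘ[m] ℝ) (H520.pt m p s F x),
      one_ae (M := M) (m := m)] with z a1 a2 a3 a4
    rw [a1, a2, a3, a4, mul_one]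
  have e2 : PP m p s x ((sob m).gr F) = H520.pt m p s (fun z => √((sob m).Γ F F z)) x := by
    rw [PP_eq_pt h.ker hs]
    exact pt_congr h.ker ((sob m).gr_ae F) s x
  rw [e1, e2]
  exact h1

theorem one_top : MemLp (1 : M →ₘ[m] ℝ) ∞ m := mem_top_one

/-- change of the constant -/
theorem PP_abs_sub_const (h : Env m n K o A p) {s : ℝ} (hs : 0 < s) {F : M →ₘ[m] ℝ}
    (hF : MemLp F ∞ m) (x : M) (a b : ℝ) : PP m p s x |F - a • (1 : M →ₘ[m] ℝ)| ≤
      PP m p s x |F - b • (1 : M →ₘ[m] ℝ)| + |b - a| := by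
  have hph := ph_mem1 h.ker hs x
  have h1 : PP m p s x |F - b • (1 : M →ₘ[m] ℝ)| + |b - a|
      = I (ph m p s x * |F - b • (1 : M →ₘ[m] ℝ)| + |b - a| • ph m p s x) := by
    rw [I_add (PP_int_top h.ker hs x (ab_mem (mem_sub hF (mem_smul _ mem_top_one))))
      (mem_smul _ hph), I_smul, I_ph h.ker hs x, mul_one]
    rfl
  rw [h1]
  refine I_mono (PP_int_top h.ker hs x (ab_mem (mem_sub hF (mem_smul _ mem_top_one))))
    (mem_add (PP_int_top h.ker hs x (ab_mem (mem_sub hF (mem_smul _ mem_top_one))))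
      (mem_smul _ hph)) ?_
  rw [le_iff_ae]
  filter_upwards [mul_ae (ph m p s x) |F - a • (1 : M →ₘ[m] ℝ)|, abs_ae' (F - a • (1 : M →ₘ[m] ℝ)),
    sub_ae F (a • (1 : M →ₘ[m] ℝ)), smul_ae (1 : M →ₘ[m] ℝ) a, one_ae (M := M) (m := m),
    add_ae (ph m p s x * |F - b • (1 : M →ₘ[m] ℝ)|) (|b - a| • ph m p s x),
    mul_ae (ph m p s x) |F - b • (1 : M →ₘ[m] ℝ)|, abs_ae' (F - b • (1 : M →ₘ[m] ℝ)),
    sub_ae F (b • (1 : M →ₘ[m] ℝ)), smul_ae (1 : M →ₘ[m] ℝ) b, smul_ae (ph m p s x) |b - a|,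
    nonneg_iff_ae.1 (ph_nonneg h.ker hs x)] with z a1 a2 a3 a4 a5 a6 a7 a8 a9 a10 a11 a12
  rw [a1, a2, a3, a4, a6, a7, a8, a9, a10, a11, a5]
  have h2 : |F z - a * 1| ≤ |F z - b * 1| + |b - a| := by
    have := abs_add_le (F z - b * 1) (b - a)
    have e : F z - b * 1 + (b - a) = F z - a * 1 := by ring
    rwa [e] at this
  have h3 := mul_le_mul_of_nonneg_left h2 a12
  linarith

variable {R Q η ρ ε : ℝ} {u : Fin n → M →ₘ[m] ℝ} {uu : M → E n} {x : M} {t : ℝ}

/-- oscillation at one time, in terms of `gm` -/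
theorem osc_gm (h : Env m n K o A p) (hu : Cfg m n K o p R Q η ρ u uu) {s : ℝ} (hs : 0 < s)
    (x : M) (c : E n) :
    PP m p s x |(sob m).Γ (uc u c) (uc u c) - Gm m p u s x c c • (1 : M →ₘ[m] ℝ)| ≤
      4 * Real.exp (2 * |K| * s) * √(2 * s) * (√(Gm m p u s x c c) * √(gm m K p u s x c c)) := by
  have hC := env_gamma h
  have := env_sf h
  have hf := uc_test hC hu c
  have h1 := PP_poinc h hs (hC.Γ_mem (env_bei' h) hf hf).1 x
  have h2 := kato hC (env_bei' h) hf (ph_A hC h.ker h.kb hs x) (ph_mem1 h.ker hs x)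
    (ph_nonneg h.ker hs x)
  have h3 : PP m p s x ((sob m).gr ((sob m).Γ (uc u c) (uc u c))) ≤
      2 * √(Gm m p u s x c c) * √(gm m K p u s x c c) := h2
  refine h1.trans ((mul_le_mul_of_nonneg_left h3 (by positivity)).trans (le_of_eq (by ring)))

/-- oscillation at one time under (T) -/
theorem osc_T (h : Env m n K o A p) (hu : Cfg m n K o p R Q η ρ u uu) (hη : 0 ≤ η)
    (hQη : Q * η ≤ 1 / 2) (hε : 0 ≤ ε) (ht : 0 < t)
    (hT : TTx m K p Q ε ρ u x t) {s : ℝ} (h1 : t ≤ s) (h2 : s ≤ Q * ρ ^ 2) (c : E n) :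
    PP m p s x |(sob m).Γ (uc u c) (uc u c) - Gm m p u s x c c • (1 : M →ₘ[m] ℝ)| ≤
      17 * √ε * Gm m p u s x c c := by
  have hs := ht.trans_le h1
  have hρ := hu.ρ_pos
  have hG := Gm_nonneg h hu x c hs
  refine (osc_gm h hu hs x c).trans ?_
  have h3 : Real.exp (2 * |K| * s) ≤ 3 := by
    have h4 : 2 * |K| * s ≤ 1 := by
      have h5 : |K| * s ≤ |K| * (Q * ρ ^ 2) := mul_le_mul_of_nonneg_left h2 (abs_nonneg _)
      have h6 : |K| * (Q * ρ ^ 2) = Q * (|K| * ρ ^ 2) := by ring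
      have hQ0 : 0 ≤ Q := by
        have : 0 < Q * ρ ^ 2 := hs.trans_le h2
        by_contra hc
        rw [not_le] at hc
        nlinarith [sq_nonneg ρ]
      have h7 : Q * (|K| * ρ ^ 2) ≤ Q * η := mul_le_mul_of_nonneg_left hu.Kρ hQ0
      linarith
    calc Real.exp (2 * |K| * s) ≤ Real.exp 1 := Real.exp_le_exp.2 h4
      _ ≤ 3 := by
        have := Real.exp_one_lt_d9
        linarith
  have h4 : √(gm m K p u s x c c) ≤ √(ε / s) * √(Gm m p u s x c c) := by
    rw [← Real.sqrt_mul (by positivity)]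
    refine Real.sqrt_le_sqrt ?_
    rw [div_mul_eq_mul_div, le_div_iff₀ hs]
    have := hT s h1 h2 c
    linarith
  have h5 : √(2 * s) * √(ε / s) = √2 * √ε := by
    rw [← Real.sqrt_mul (by positivity), ← Real.sqrt_mul (by positivity)]
    congr 1
    field_simp
  have h6 : √(2 : ℝ) ≤ 17 / 12 := by
    rw [Real.sqrt_le_iff]; constructor <;> norm_num
  calc 4 * Real.exp (2 * |K| * s) * √(2 * s) * (√(Gm m p u s x c c) * √(gm m K p u s x c c))
      ≤ 4 * 3 * √(2 * s) * (√(Gm m p u s x c c) * (√(ε / s) * √(Gm m p u s x c c))) := by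
        gcongr
    _ = 12 * (√(2 * s) * √(ε / s)) * (√(Gm m p u s x c c) * √(Gm m p u s x c c)) := by ring
    _ = 12 * (√2 * √ε) * Gm m p u s x c c := by rw [h5, Real.mul_self_sqrt hG]
    _ ≤ 12 * (17 / 12 * √ε) * Gm m p u s x c c := by gcongr
    _ = _ := by ring

/-- polarisation -/
theorem polar (h : Env m n K o A p) (hu : Cfg m n K o p R Q η ρ u uu) {s t : ℝ} (hs : 0 < s)
    (ht : 0 < t) {z x : M} {e : ℝ} (he : 0 ≤ e)
    (hd : ∀ c : E n, PP m p s z |(sob m).Γ (uc u c) (uc u c) - Gm m p u t x c c • (1 : M →ₘ[m] ℝ)| ≤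
      e * Gm m p u t x c c) (c c' : E n) :
    PP m p s z |(sob m).Γ (uc u c) (uc u c') - Gm m p u t x c c' • (1 : M →ₘ[m] ℝ)| ≤
      e * (√(Gm m p u t x c c) * √(Gm m p u t x c' c')) := by
  have hC := env_gamma h
  have hD := hC.toIsDir
  have hW := fun c => uc_W hC hu c
  have hGs := fun c d => Gm_symm (t := t) (x := x) hC hu c d
  have hGa := fun c d e => Gm_add_left (x := x) hC h.ker hu ht c d e
  have hGm := fun a c e => Gm_smul_left (t := t) (x := x) hC hu a c e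
  have key : ∀ c c' : E n,
      PP m p s z |(sob m).Γ (uc u c) (uc u c') - Gm m p u t x c c' • (1 : M →ₘ[m] ℝ)| ≤
      e / 2 * (Gm m p u t x c c + Gm m p u t x c' c') := by
    intro c c'
    have eG : ∀ r : ℝ, Gm m p u t x (c + r • c') (c + r • c')
        = Gm m p u t x c c + 2 * r * Gm m p u t x c c' + r ^ 2 * Gm m p u t x c' c' := by
      intro r
      rw [hGa, hGs c, hGs (r • c'), hGa, hGa, hGm, hGm, hGs c (r • c'), hGm, hGs c' (r • c'), hGm,
        hGs c' c]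
      ring
    have eΓ : ∀ r : ℝ, (sob m).Γ (uc u (c + r • c')) (uc u (c + r • c'))
        = (sob m).Γ (uc u c) (uc u c) + (2 * r) • (sob m).Γ (uc u c) (uc u c')
          + r ^ 2 • (sob m).Γ (uc u c') (uc u c') := by
      intro r
      rw [uc_add, uc_smul]
      have hr := hC.smul_mem r _ (hW c')
      rw [hC.add_left _ (hW c) _ hr _ (hC.add_mem _ (hW c) _ hr), hC.Γ_add_right (hW c) (hW c) hr,
        hC.Γ_add_right hr (hW c) hr, hC.smul_left _ _ (hW c') _ (hW c),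
        hC.smul_left _ _ (hW c') _ hr, hC.Γ_smul_right _ (hW c) (hW c'),
        hC.Γ_smul_right _ (hW c') (hW c'), hC.symm _ (hW c') _ (hW c)]
      module
    have h1 := hd (c + (1 : ℝ) • c')
    have h2 := hd (c + (-1 : ℝ) • c')
    rw [eG, eΓ] at h1 h2
    set F := (sob m).Γ (uc u c) (uc u c') with hF
    set F1 := (sob m).Γ (uc u c) (uc u c) with hF1
    set F2 := (sob m).Γ (uc u c') (uc u c') with hF2
    set g := Gm m p u t x c c' with hg
    set g1 := Gm m p u t x c c with hg1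
    set g2 := Gm m p u t x c' c' with hg2
    have tF : MemLp F ∞ m := Γ_top hC hu c c'
    have tF1 : MemLp F1 ∞ m := Γ_top hC hu c c
    have tF2 : MemLp F2 ∞ m := Γ_top hC hu c' c'
    set X1 := F1 + (2 * (1 : ℝ)) • F + (1 : ℝ) ^ 2 • F2
      - (g1 + 2 * 1 * g + 1 ^ 2 * g2) • (1 : M →ₘ[m] ℝ) with hX1
    set X2 := F1 + (2 * (-1 : ℝ)) • F + (-1 : ℝ) ^ 2 • F2
      - (g1 + 2 * -1 * g + (-1) ^ 2 * g2) • (1 : M →ₘ[m] ℝ) with hX2
    have t1 : MemLp X1 ∞ m := mem_sub (mem_add (mem_add tF1 (mem_smul _ tF)) (mem_smul _ tF2))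
      (mem_smul _ mem_top_one)
    have t2 : MemLp X2 ∞ m := mem_sub (mem_add (mem_add tF1 (mem_smul _ tF)) (mem_smul _ tF2))
      (mem_smul _ mem_top_one)
    have h3 : PP m p s z |F - g • (1 : M →ₘ[m] ℝ)| ≤
        (4 : ℝ)⁻¹ * (PP m p s z |X1| + PP m p s z |X2|) := by
      rw [← PP_add h.ker hs z (PP_int_top h.ker hs z (ab_mem t1))
        (PP_int_top h.ker hs z (ab_mem t2)), ← PP_smul]
      refine I_mono (PP_int_top h.ker hs z (ab_mem (mem_sub tF (mem_smul _ mem_top_one))))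
        (PP_int_top h.ker hs z (mem_smul _ (mem_add (ab_mem t1) (ab_mem t2)))) ?_
      refine mul_le_mul_of_nonneg_left ?_ (ph_nonneg h.ker hs z)
      have e4 : X1 - X2 = (4 : ℝ) • (F - g • (1 : M →ₘ[m] ℝ)) := by
        rw [hX1, hX2]; module
      rw [le_iff_ae]
      filter_upwards [abs_ae' (F - g • (1 : M →ₘ[m] ℝ)), smul_ae (|X1| + |X2|) (4 : ℝ)⁻¹,
        add_ae |X1| |X2|, abs_ae' X1, abs_ae' X2, sub_ae X1 X2, eq_iff_ae.1 e4,
        smul_ae (F - g • (1 : M →ₘ[m] ℝ)) (4 : ℝ)] with y a1 a2 a3 a4 a5 a6 a7 a8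
      rw [a1, a2, a3, a4, a5]
      rw [a6, a8] at a7
      have h5 : (F - g • (1 : M →ₘ[m] ℝ)) y = (4 : ℝ)⁻¹ * (X1 y - X2 y) := by rw [a7]; ring
      rw [h5, abs_mul, abs_of_pos (by norm_num : (0 : ℝ) < 4⁻¹)]
      exact mul_le_mul_of_nonneg_left (abs_sub _ _) (by norm_num)
    refine h3.trans ?_
    have h4 : PP m p s z |X1| + PP m p s z |X2| ≤ e * (2 * (g1 + g2)) := by
      refine (add_le_add h1 h2).trans (le_of_eq ?_)
      ring
    have h5 := mul_le_mul_of_nonneg_left h4 (show (0 : ℝ) ≤ 4⁻¹ by norm_num)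
    refine h5.trans (le_of_eq ?_)
    ring
  have hg1 := Gm_nonneg h hu x c ht
  have hg2 := Gm_nonneg h hu x c' ht
  have h1 : PP m p s z |(sob m).Γ (uc u c) (uc u c') - Gm m p u t x c c' • (1 : M →ₘ[m] ℝ)| ≤
      2 * √(e * Gm m p u t x c c) * √(e * Gm m p u t x c' c' / 4) := by
    refine le_two_sqrt (by positivity) (by positivity) fun lam hlam => ?_
    set r := √lam with hr
    have hr0 : 0 < r := Real.sqrt_pos.2 hlam
    have hr2 : lam = r ^ 2 := (Real.sq_sqrt hlam.le).symm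
    have h2 := key (r • c) (r⁻¹ • c')
    have hGG : ∀ (a b : ℝ) (d d' : E n), Gm m p u t x (a • d) (b • d')
        = a * b * Gm m p u t x d d' := by
      intro a b d d'
      rw [hGm, hGs, hGm, hGs]
      ring
    rw [hGG, hGG, hGG, mul_inv_cancel₀ hr0.ne', one_mul] at h2
    have e1 : (sob m).Γ (uc u (r • c)) (uc u (r⁻¹ • c')) = (sob m).Γ (uc u c) (uc u c') := by
      rw [uc_smul, uc_smul, hC.smul_left _ _ (hW c) _ (hC.smul_mem _ _ (hW c')),
        hC.Γ_smul_right _ (hW c) (hW c'), smul_smul, mul_inv_cancel₀ hr0.ne', one_smul]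
    rw [e1] at h2
    refine h2.trans (le_of_eq ?_)
    rw [hr2]
    field_simp
    ring
  have h2 : √(e * Gm m p u t x c' c' / 4) = √(e * Gm m p u t x c' c') / 2 := by
    rw [Real.sqrt_div (by positivity), show (4 : ℝ) = 2 ^ 2 by norm_num,
      Real.sqrt_sq (by norm_num)]
  rw [h2, Real.sqrt_mul he, Real.sqrt_mul he] at h1
  refine h1.trans (le_of_eq ?_)
  have h3 := Real.mul_self_sqrt he
  calc 2 * (√e * √(Gm m p u t x c c)) * (√e * √(Gm m p u t x c' c') / 2)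
      = (√e * √e) * (√(Gm m p u t x c c) * √(Gm m p u t x c' c')) := by ring
    _ = _ := by rw [h3]

end env

end Vale.Agent.P242.H597
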