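import Vale.Agent.P242.H597.EnvC

/-! P242, A4-PRE (helper597): the averages of `Γ(u_c,u_c')` at all points near the centre and at all
comparable times; the almost everywhere bound. -/

set_option linter.all false

open MeasureTheory Filter Topology Set Metric
open scoped ENNReal NNReal InnerProductSpace

universe u

namespace Vale.Agent.P242.H597

open Vale.Agent.P233 Vale.Agent.P233.RA Vale.Agent.P242.H71 Vale.Agent.P242.H990
  Vale.Agent.P242.H751 Vale.Agent.P242.H155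

section env

variable {M : Type u} [MetricSpace M] [CompleteSpace M] [SecondCountableTopology M]
  [MeasurableSpace M] [BorelSpace M] {m : Measure M} {n : ℕ} {K : ℝ} {o : M} {A : ℝ}
  {p : ℝ → M → M → ℝ} {R Q η ρ ε : ℝ} {u : Fin n → M →ₘ[m] ℝ} {uu : M → E n} {x : M} {t : ℝ}

/-- the kernel constant -/
noncomputable def Ck (n : ℕ) (A L : ℝ) : ℝ := cG n A (4 * A ^ 2 * L ^ 4) (L ^ 2) * Real.exp (2 * A)

/-- the growth factor -/
noncomputable def qf (n : ℕ) (A L Q ε η : ℝ) : ℝ := (4 * A ^ 2 * L ^ 2) ^ (2 * ε + 5 * n * Q * η)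

theorem ball_mono (hu : Cfg m n K o p R Q η ρ u uu) (hR : 2 ≤ R) (hx : x ∈ ball o (R / 2 * ρ)) :
    x ∈ ball o (R * ρ) := by
  have hρ := hu.ρ_pos
  rw [mem_ball] at hx ⊢
  refine hx.trans_le ?_
  nlinarith

theorem sqrt_le_ρ (hu : Cfg m n K o p R Q η ρ u uu) (htρ : t ≤ ρ ^ 2) : √t ≤ ρ := by
  rw [show ρ = √(ρ ^ 2) from (Real.sqrt_sq hu.ρ_pos.le).symm]
  exact Real.sqrt_le_sqrt htρ

theorem near_o (hu : Cfg m n K o p R Q η ρ u uu) {L : ℝ} (hL : 1 ≤ L) (hR : 2 * L ≤ R)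
    (hx : x ∈ ball o (R / 2 * ρ)) (htρ : t ≤ ρ ^ 2) {z : M} (hz : dist x z ≤ L * √t) :
    dist z o < R * ρ ∧ dist z o ≤ 1 := by
  have hρ := hu.ρ_pos
  have h5 : dist x o < R / 2 * ρ := hx
  have h6 := sqrt_le_ρ hu htρ
  have h7 : dist z o ≤ dist x z + dist x o := by
    have := dist_triangle z x o
    rwa [dist_comm z x] at this
  have h8 : L * √t ≤ L * ρ := by gcongr
  have h9 : L * ρ ≤ R / 2 * ρ := by gcongr; linarith
  have := hu.Rρ
  constructor <;> linarith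

/-- domination of all means near the centre by one mean at the centre -/
theorem dom_near (h : Env m n K o A p) (hu : Cfg m n K o p R Q η ρ u uu) {L : ℝ} (hL : 1 ≤ L)
    (hQ : 4 * A ^ 2 * L ^ 2 ≤ Q) (hR : 2 * L ≤ R) (hx : x ∈ ball o (R / 2 * ρ)) (ht : 0 < t)
    (htρ : t ≤ ρ ^ 2) {z : M} (hz : dist x z ≤ L * √t) {s : ℝ} (hs1 : t / L ^ 2 ≤ s)
    (hs2 : s ≤ L ^ 2 * t) {F : M →ₘ[m] ℝ} (hF : 0 ≤ F) (hFt : MemLp F ∞ m) :
    PP m p s z F ≤ Ck n A L * PP m p (4 * A ^ 2 * L ^ 2 * t) x F := by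
  have hA := h.kb.one_le
  have hρ := hu.ρ_pos
  have hL2 : 1 ≤ L ^ 2 := one_le_pow₀ hL
  have hs0 : 0 < s := lt_of_lt_of_le (by positivity) hs1
  have hs'0 : 0 < 4 * A ^ 2 * L ^ 2 * t := by positivity
  have hs'Q : 4 * A ^ 2 * L ^ 2 * t ≤ Q * ρ ^ 2 := by
    calc 4 * A ^ 2 * L ^ 2 * t ≤ Q * t := mul_le_mul_of_nonneg_right hQ ht.le
      _ ≤ Q * ρ ^ 2 := by
        have : 0 ≤ Q := le_trans (by positivity) hQ
        gcongr
  have htL : t ≤ L ^ 2 * s := by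
    rw [div_le_iff₀ (by positivity)] at hs1; linarith
  have e1 : 4 * A ^ 2 * s ≤ 4 * A ^ 2 * L ^ 2 * t := by
    calc 4 * A ^ 2 * s ≤ 4 * A ^ 2 * (L ^ 2 * t) := by gcongr
      _ = _ := by ring
  have e2 : 4 * A ^ 2 * L ^ 2 * t ≤ 4 * A ^ 2 * L ^ 4 * s := by
    calc 4 * A ^ 2 * L ^ 2 * t ≤ 4 * A ^ 2 * L ^ 2 * (L ^ 2 * s) := by gcongr
        _ = _ := by ring
  have e3 : dist z x ≤ L ^ 2 * √s := by
    rw [dist_comm]
    refine hz.trans ?_
    have : √t ≤ L * √s := by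
      rw [Real.sqrt_le_iff]
      refine ⟨by positivity, ?_⟩
      rw [mul_pow, Real.sq_sqrt hs0.le]
      linarith
    calc L * √t ≤ L * (L * √s) := by gcongr
      _ = _ := by ring
  have hzo := (near_o hu hL hR hx htρ hz).2
  have hdom := PP_dom h hs0 e1 e2 (hs'Q.trans hu.Qρ) e3 hF hFt
  have hcG : 0 < cG n A (4 * A ^ 2 * L ^ 4) (L ^ 2) := cG_pos hA (by positivity)
  have h9 : cG n A (4 * A ^ 2 * L ^ 4) (L ^ 2) * Real.exp (2 * A * dist z o) ≤ Ck n A L := by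
    unfold Ck
    refine mul_le_mul_of_nonneg_left (Real.exp_le_exp.2 ?_) hcG.le
    nlinarith [dist_nonneg (x := z) (y := o)]
  refine hdom.trans (mul_le_mul_of_nonneg_right h9 ?_)
  exact I_nonneg (mul_nonneg (ph_nonneg h.ker hs'0 x) hF)

theorem Ck_nonneg (h : Env m n K o A p) {L : ℝ} (hL : 1 ≤ L) : 0 ≤ Ck n A L := by
  have hA := h.kb.one_le
  have hcG : 0 < cG n A (4 * A ^ 2 * L ^ 4) (L ^ 2) := cG_pos hA (by positivity)
  unfold Ck
  positivity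

theorem two_sub_le {q g g' : ℝ} (hq : 1 ≤ q) (hg : 0 ≤ g) (hg' : 0 ≤ g') (h1 : g' ≤ q * g)
    (h2 : g ≤ q * g') : |g' - g| ≤ (q - 1) * g := by
  rw [abs_le]
  constructor
  · have h3 : 0 ≤ (q - 1) ^ 2 * g' := by positivity
    rcases le_or_gt q 2 with k | k
    · nlinarith [mul_le_mul_of_nonneg_left h2 (by linarith : 0 ≤ 2 - q)]
    · nlinarith
  · linarith

/-- the mean at one later time -/
theorem diag_time (h : Env m n K o A p) (hu : Cfg m n K o p R Q η ρ u uu) {L : ℝ} (hL : 1 ≤ L)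
    (hQ : 4 * A ^ 2 * L ^ 2 ≤ Q) (hn : 1 ≤ n)
    (hx : x ∈ ball o (R * ρ)) (ht : 0 < t) (htρ : t ≤ ρ ^ 2) (hT : TTx m K p Q ε ρ u x t)
    (hε : 0 ≤ ε) (hε1 : ε ≤ 1 / 16) (hη : 0 ≤ η) (hη1 : (1 + 24 * n) * η ≤ 1 / 2)
    (hQη : Q * η ≤ 1 / 2) (c : E n) :
    PP m p (4 * A ^ 2 * L ^ 2 * t) x
      |(sob m).Γ (uc u c) (uc u c) - Gm m p u t x c c • (1 : M →ₘ[m] ℝ)| ≤
      (17 * √ε * qf n A L Q ε η + (qf n A L Q ε η - 1)) * Gm m p u t x c c := by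
  have hC := env_gamma h
  have hA := h.kb.one_le
  have hρ := hu.ρ_pos
  have hA2 : 1 ≤ A ^ 2 := one_le_pow₀ hA
  have hL2 : 1 ≤ L ^ 2 := one_le_pow₀ hL
  have hAL : 1 ≤ 4 * A ^ 2 * L ^ 2 := by nlinarith
  have hQ1 : 1 ≤ Q := hAL.trans hQ
  set s' := 4 * A ^ 2 * L ^ 2 * t with hs'
  have hs'0 : 0 < s' := by positivity
  have hts' : t ≤ s' := by nlinarith
  have hs'Q : s' ≤ Q * ρ ^ 2 := by
    calc s' ≤ Q * t := mul_le_mul_of_nonneg_right hQ ht.le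
      _ ≤ Q * ρ ^ 2 := by gcongr
  have hG := Gm_nonneg h hu x c ht
  have ha0 : 0 ≤ 2 * ε + 5 * n * Q * η := by positivity
  set q := qf n A L Q ε η with hq
  have hqe : q = (s' / t) ^ (2 * ε + 5 * n * Q * η) := by
    rw [hq, hs', mul_div_assoc, div_self ht.ne', mul_one]; rfl
  have hq1 : 1 ≤ q := Real.one_le_rpow hAL ha0
  obtain ⟨g1, g2⟩ := G_two h hu hQ1 hn hx ht hT hε1 hη hη1 le_rfl hts' hs'Q c
  rw [← hqe] at g1 g2
  have hG' := Gm_nonneg h hu x c hs'0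
  have h1 := osc_T h hu hη hQη hε ht hT hts' hs'Q c
  have h2 := PP_abs_sub_const h hs'0 (Γ_top hC hu c c) x (Gm m p u t x c c) (Gm m p u s' x c c)
  have h3 := two_sub_le hq1 hG hG' g1 g2
  refine h2.trans ?_
  have h5 : 17 * √ε * Gm m p u s' x c c ≤ 17 * √ε * (q * Gm m p u t x c c) :=
    mul_le_mul_of_nonneg_left g1 (by positivity)
  calc _ ≤ 17 * √ε * (q * Gm m p u t x c c) + (q - 1) * Gm m p u t x c c :=
        add_le_add (h1.trans h5) h3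
    _ = _ := by ring

/-- averages near the centre, diagonal -/
theorem diag (h : Env m n K o A p) (hu : Cfg m n K o p R Q η ρ u uu) {L : ℝ} (hL : 1 ≤ L)
    (hQ : 4 * A ^ 2 * L ^ 2 ≤ Q) (hR : 2 * L ≤ R) (hn : 1 ≤ n)
    (hx : x ∈ ball o (R / 2 * ρ)) (ht : 0 < t) (htρ : t ≤ ρ ^ 2) (hT : TTx m K p Q ε ρ u x t)
    (hε : 0 ≤ ε) (hε1 : ε ≤ 1 / 16) (hη : 0 ≤ η) (hη1 : (1 + 24 * n) * η ≤ 1 / 2)
    (hQη : Q * η ≤ 1 / 2) {z : M} (hz : dist x z ≤ L * √t) {s : ℝ} (hs1 : t / L ^ 2 ≤ s)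
    (hs2 : s ≤ L ^ 2 * t) (c : E n) :
    PP m p s z |(sob m).Γ (uc u c) (uc u c) - Gm m p u t x c c • (1 : M →ₘ[m] ℝ)| ≤
      Ck n A L * (17 * √ε * qf n A L Q ε η + (qf n A L Q ε η - 1)) * Gm m p u t x c c := by
  have h1 := dom_near h hu hL hQ hR hx ht htρ hz hs1 hs2
    (ab_nonneg ((sob m).Γ (uc u c) (uc u c) - Gm m p u t x c c • (1 : M →ₘ[m] ℝ)))
    (ab_mem (mem_sub (Γ_top (env_gamma h) hu c c) (mem_smul _ mem_top_one)))
  have h2 := diag_time h hu hL hQ hn (ball_mono hu (by linarith) hx) ht htρ hT hε hε1 hη hη1 hQη c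
  refine h1.trans ((mul_le_mul_of_nonneg_left h2 (Ck_nonneg h hL)).trans (le_of_eq ?_))
  ring

/-- the almost everywhere bound -/
theorem ae_bound (h : Env m n K o A p) (hu : Cfg m n K o p R Q η ρ u uu) {L : ℝ} (hL : 1 ≤ L)
    (hQ : 4 * A ^ 2 * L ^ 2 ≤ Q) (hR : 2 * L ≤ R) (hn : 1 ≤ n)
    (hx : x ∈ ball o (R / 2 * ρ)) (ht : 0 < t) (htρ : t ≤ ρ ^ 2) (hT : TTx m K p Q ε ρ u x t)
    (hε : 0 ≤ ε) (hε1 : ε ≤ 1 / 16) (hη : 0 ≤ η) (hη1 : (1 + 24 * n) * η ≤ 1 / 2)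
    (hQη : Q * η ≤ 1 / 2) (c : E n) :
    ∀ᵐ z ∂m, dist x z < L * √t → (sob m).Γ (uc u c) (uc u c) z ≤
      (1 + Ck n A L * (17 * √ε * qf n A L Q ε η + (qf n A L Q ε η - 1)) + 24 * n * Q * η)
        * Gm m p u t x c c := by
  have hC := env_gamma h
  have := env_sf h
  have hA := h.kb.one_le
  have hρ := hu.ρ_pos
  have hρ2 : 0 < ρ ^ 2 := by positivity
  have hA2 : 1 ≤ A ^ 2 := one_le_pow₀ hA
  have hL2 : 1 ≤ L ^ 2 := one_le_pow₀ hL
  have hAL : 1 ≤ 4 * A ^ 2 * L ^ 2 := by nlinarith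
  have hQ1 : 1 ≤ Q := hAL.trans hQ
  have hxR : x ∈ ball o (R * ρ) := by
    rw [mem_ball] at hx ⊢
    refine hx.trans_le ?_
    have : 0 < R := by linarith
    nlinarith
  have h6 : √t ≤ ρ := by
    rw [show ρ = √(ρ ^ 2) from (Real.sqrt_sq hρ.le).symm]; exact Real.sqrt_le_sqrt htρ
  have htQ : t ≤ Q * ρ ^ 2 := by nlinarith
  have key := ae_le_av hC (env_bei' h) (uc_test hC hu c) (Φ := fun z s => ph m p s z)
    (fun z => env_cen h z) (fun s hs g hg => by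
      filter_upwards [h.ker.rep s hs g hg] with z hz
      rw [hz, I_ph_mul h.ker hs]) (U := {z | dist x z < L * √t}) (t := t)
    (E := 12 * n * (η / ρ ^ 2) * ‖c‖ ^ 2) ht (by
      intro z hz r hr hrt
      refine Er_le' h hu ?_ hr (hrt.trans htQ) hη c
      rw [mem_ball]
      have h5 : dist x o < R / 2 * ρ := hx
      have h7 : dist z o ≤ dist x z + dist x o := by
        have := dist_triangle z x o
        rwa [dist_comm z x] at this
      have h8 : L * √t ≤ L * ρ := by gcongr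
      have hz' : dist x z < L * √t := hz
      nlinarith)
  filter_upwards [key] with z hz hd
  refine (hz hd).trans ?_
  have h1 := diag h hu hL hQ hR hn hx ht htρ hT hε hε1 hη hη1 hQη hd.le
    (s := t) (div_le_self ht.le hL2) (by nlinarith) c
  have h2 : PP m p t z ((sob m).Γ (uc u c) (uc u c)) ≤ Gm m p u t x c c +
      PP m p t z |(sob m).Γ (uc u c) (uc u c) - Gm m p u t x c c • (1 : M →ₘ[m] ℝ)| := by
    have hph := ph_mem1 h.ker ht z
    have e1 : Gm m p u t x c c +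
      PP m p t z |(sob m).Γ (uc u c) (uc u c) - Gm m p u t x c c • (1 : M →ₘ[m] ℝ)|
      = I (Gm m p u t x c c • ph m p t z + ph m p t z *
        |(sob m).Γ (uc u c) (uc u c) - Gm m p u t x c c • (1 : M →ₘ[m] ℝ)|) := by
      rw [I_add (mem_smul _ hph) (PP_int_top h.ker ht z (ab_mem (mem_sub (Γ_top hC hu c c)
        (mem_smul _ mem_top_one)))), I_smul, I_ph h.ker ht z, mul_one]
      rfl
    rw [e1]
    refine I_mono (PP_int_top h.ker ht z (Γ_top hC hu c c)) (mem_add (mem_smul _ hph)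
      (PP_int_top h.ker ht z (ab_mem (mem_sub (Γ_top hC hu c c) (mem_smul _ mem_top_one))))) ?_
    rw [le_iff_ae]
    set F := (sob m).Γ (uc u c) (uc u c) with hF
    set g := Gm m p u t x c c with hg
    filter_upwards [mul_ae (ph m p t z) F, add_ae (g • ph m p t z) (ph m p t z *
      |F - g • (1 : M →ₘ[m] ℝ)|), smul_ae (ph m p t z) g, mul_ae (ph m p t z)
      |F - g • (1 : M →ₘ[m] ℝ)|, abs_ae' (F - g • (1 : M →ₘ[m] ℝ)),
      sub_ae F (g • (1 : M →ₘ[m] ℝ)), smul_ae (1 : M →ₘ[m] ℝ) g, one_ae (M := M) (m := m),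
      nonneg_iff_ae.1 (ph_nonneg h.ker ht z)] with y a1 a2 a3 a4 a5 a6 a7 a8 a9
    rw [a1, a2, a3, a4, a5, a6, a7, a8]
    have h3 : F y ≤ g + |F y - g * 1| := by
      have := le_abs_self (F y - g * 1)
      linarith
    have h4 := mul_le_mul_of_nonneg_left h3 a9
    linarith
  have h3 := norm_le h hu hQ1 hxR ht hT hε1 hη hη1 le_rfl htQ c
  have h4 : t * (12 * n * (η / ρ ^ 2) * ‖c‖ ^ 2) ≤ 24 * n * Q * η * Gm m p u t x c c := by
    calc t * (12 * n * (η / ρ ^ 2) * ‖c‖ ^ 2)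
        ≤ t * (12 * n * (η / ρ ^ 2) * (2 * (Q * ρ ^ 2 / t) * Gm m p u t x c c)) := by gcongr
      _ = _ := by field_simp; ring
  have e2 : I (ph m p t z * (sob m).Γ (uc u c) (uc u c))
      = PP m p t z ((sob m).Γ (uc u c) (uc u c)) := rfl
  rw [e2]
  linarith

end env

end Vale.Agent.P242.H597
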