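import Vale.Agent.P242.H542.Gam

/-! P242, A4-PRE, part 1 (helper597): second order control of `Γ(f,f)` along the heat flow, at the
level of classes. -/

set_option linter.all false

open MeasureTheory Filter Topology Set
open scoped ENNReal NNReal

universe u

namespace Vale.Agent.P242.H597

open Vale.Agent.P233

variable {M : Type u} [MeasurableSpace M] {m : Measure M} {C : Calc m}

theorem ab_nonneg (f : M →ₘ[m] ℝ) : 0 ≤ |f| := by
  rw [nonneg_iff_ae]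
  filter_upwards [abs_ae' f] with x hx
  rw [hx]; exact abs_nonneg _

theorem ab_mem {p : ℝ≥0∞} {f : M →ₘ[m] ℝ} (hf : MemLp f p m) : MemLp (|f| : M →ₘ[m] ℝ) p m :=
  mem_of_le hf (by filter_upwards [abs_ae' f] with x hx; rw [hx, abs_abs])

/-- `I (a * b)` is bounded by `I (φ * |b|)` for `|a| ≤ φ` -/
theorem abs_I_mul_le {a b φ : M →ₘ[m] ℝ} (h1 : MemLp (φ * |b| : M →ₘ[m] ℝ) 1 m)
    (hle : a ≤ φ) (hge : -φ ≤ a) : |I (a * b)| ≤ I (φ * |b|) := by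
  rw [le_iff_ae] at hle hge
  have hb : ∀ᵐ x ∂m, |(a * b : M →ₘ[m] ℝ) x| ≤ (φ * |b| : M →ₘ[m] ℝ) x := by
    filter_upwards [hle, hge, neg_ae φ, mul_ae a b, mul_ae φ (|b|), abs_ae' b] with x u1 u2 u3 u4 u5 u6
    rw [u4, u5, u6, abs_mul]
    rw [u3] at u2
    exact mul_le_mul_of_nonneg_right (abs_le.2 ⟨u2, u1⟩) (abs_nonneg _)
  unfold I
  rw [abs_le]
  have hi := int_of_mem h1
  have hab : Integrable (a * b : M →ₘ[m] ℝ) m :=
    hi.mono' (a * b : M →ₘ[m] ℝ).aestronglyMeasurable (by simpa [Real.norm_eq_abs] using hb)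
  constructor
  · rw [← integral_neg]
    refine integral_mono_ae hi.neg hab ?_
    filter_upwards [hb] with x hx
    exact (abs_le.1 hx).1
  · refine integral_mono_ae hab hi ?_
    filter_upwards [hb] with x hx
    exact (abs_le.1 hx).2

/-- duality for a weighted `L¹` norm -/
theorem I_mul_ab_le {φ G : M →ₘ[m] ℝ} {B : ℝ} (h2 : MemLp φ 2 m) (ht : MemLp φ ∞ m) (h0 : 0 ≤ φ)
    (h : ∀ ψ : M →ₘ[m] ℝ, MemLp ψ 2 m → MemLp ψ ∞ m → ψ ≤ φ → -φ ≤ ψ → |I (ψ * G)| ≤ B) :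
    I (φ * |G|) ≤ B := by
  have hφm : Measurable (φ : M → ℝ) := (AEEqFun.stronglyMeasurable φ).measurable
  have hGm : Measurable (G : M → ℝ) := (AEEqFun.stronglyMeasurable G).measurable
  have hm : Measurable fun x => if 0 ≤ G x then φ x else -φ x :=
    Measurable.ite (measurableSet_le measurable_const hGm) hφm hφm.neg
  set ψ : M →ₘ[m] ℝ := AEEqFun.mk _ hm.aestronglyMeasurable with hψ
  have hψae : ∀ᵐ x ∂m, ψ x = if 0 ≤ G x then φ x else -φ x := AEEqFun.coeFn_mk _ _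
  have h0' := nonneg_iff_ae.1 h0
  have hle : ∀ᵐ x ∂m, |ψ x| ≤ |φ x| := by
    filter_upwards [hψae] with x hx
    rw [hx]; split_ifs <;> simp
  have h1 := h ψ (mem_of_le h2 hle) (mem_of_le ht hle) (by
    rw [le_iff_ae]
    filter_upwards [hψae, h0'] with x hx hx0
    rw [hx]; split_ifs <;> linarith) (by
    rw [le_iff_ae]
    filter_upwards [hψae, h0', neg_ae φ] with x hx hx0 hx1
    rw [hx, hx1]; split_ifs <;> linarith)
  have e : φ * |G| = ψ * G := by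
    rw [eq_iff_ae]
    filter_upwards [mul_ae φ (|G|), mul_ae ψ G, abs_ae' G, hψae] with x u1 u2 u3 u4
    rw [u1, u2, u3, u4]
    split_ifs with hc
    · rw [abs_of_nonneg hc]
    · rw [abs_of_neg (not_le.1 hc)]; ring
  rw [e]
  exact (le_abs_self _).trans h1

/-- `Gb φ = 2 NN κ f f φ + 2 I (φ |Γ(f,Δf)|) + 2|κ| I (φ Γ(f,f))` controls the Laplacian of
`Γ(f,f)` -/
noncomputable def Gb (C : Calc m) (κ : ℝ) (f φ : M →ₘ[m] ℝ) : ℝ :=
  2 * C.NN κ f f φ + 2 * I (φ * |C.Γ f (C.lap f)|) + 2 * |κ| * I (φ * C.Γ f f)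

section

variable (hC : IsGamma C) {κ : ℝ} (hB : C.BEi κ)
variable {f φ ψ : M →ₘ[m] ℝ}

include hC hB

theorem abs_NN_le (hf : f ∈ C.Test) (hφ : φ ∈ C.A) (hψ : ψ ∈ C.A) (hle : ψ ≤ φ) (hge : -φ ≤ ψ) :
    |C.NN κ f f ψ| ≤ C.NN κ f f φ := by
  have hnψ : (-1 : ℝ) • ψ ∈ C.A := hC.toIsDir.A_smul (-1) hψ
  have h1 := hC.NN_nonneg hB (φ := φ + (-1 : ℝ) • ψ) hf (hC.toIsDir.A_add hφ hnψ) (by
    rw [nonneg_iff_ae]
    rw [le_iff_ae] at hle
    filter_upwards [hle, add_ae φ ((-1 : ℝ) • ψ), smul_ae ψ (-1)] with x a1 a2 a3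
    rw [a2, a3]; linarith)
  have h2 := hC.NN_nonneg hB (φ := φ + ψ) hf (hC.toIsDir.A_add hφ hψ) (by
    rw [nonneg_iff_ae]
    rw [le_iff_ae] at hge
    filter_upwards [hge, add_ae φ ψ, neg_ae φ] with x a1 a2 a3
    rw [a2]; rw [a3] at a1; linarith)
  rw [hC.NN_add_φ hB hf hf hφ hnψ, hC.NN_smul_φ hB _ hf hf hψ] at h1
  rw [hC.NN_add_φ hB hf hf hφ hψ] at h2
  rw [abs_le]
  constructor <;> linarith

/-- the Laplacian of `Γ(f,f)`, tested -/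
theorem abs_Γ_le (hf : f ∈ C.Test) (hφ : φ ∈ C.A) (hψ : ψ ∈ C.A) (hle : ψ ≤ φ) (hge : -φ ≤ ψ) :
    |I (C.Γ ψ (C.Γ f f))| ≤ Gb C κ f φ := by
  have hF := hC.Γ_mem hB hf hf
  obtain ⟨n1, n2, n3, n4⟩ := hC.NN_int1 hB hf hf hψ
  obtain ⟨k1, k2, k3, k4⟩ := hC.NN_int1 hB hf hf hφ
  have fA := hC.test_A hf
  have hΛ := hC.test_lap_mem hf
  have hg1 : MemLp (C.Γ f (C.lap f)) 1 m := hC.Γ_mem1 fA.1 hΛ
  have e1 : C.Γ f (C.lap f) + C.Γ f (C.lap f) = (2 : ℝ) • C.Γ f (C.lap f) := by algebra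
  have hN := abs_NN_le hC hB hf hφ hψ hle hge
  have a1 : |I (ψ * C.Γ f (C.lap f))| ≤ I (φ * |C.Γ f (C.lap f)|) :=
    abs_I_mul_le (mem_mul_top hφ.2 (ab_mem hg1)) hle hge
  have a2 : |I (ψ * C.Γ f f)| ≤ I (φ * C.Γ f f) := by
    have := abs_I_mul_le (a := ψ) (b := C.Γ f f) (φ := φ)
      (mem_mul_top hφ.2 (ab_mem (hC.mem1 f fA.1))) hle hge
    have e : φ * |C.Γ f f| = φ * C.Γ f f := by
      rw [eq_iff_ae]
      filter_upwards [mul_ae φ (|C.Γ f f|), mul_ae φ (C.Γ f f), abs_ae' (C.Γ f f),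
        nonneg_iff_ae.1 (hC.nonneg f fA.1)] with x u1 u2 u3 u4
      rw [u1, u2, u3, abs_of_nonneg u4]
    rwa [e] at this
  have e2 : C.NN κ f f ψ = -((2 : ℝ)⁻¹ * I (C.Γ ψ (C.Γ f f))) - I (ψ * C.Γ f (C.lap f))
      - κ * I (ψ * C.Γ f f) := by
    unfold Calc.NN
    rw [e1, hC.symm _ hF.1 _ hψ.1]
    have : ψ * (2 : ℝ) • C.Γ f (C.lap f) = (2 : ℝ) • (ψ * C.Γ f (C.lap f)) := by algebra
    rw [this, I_smul]
    ring
  have e3 : I (C.Γ ψ (C.Γ f f)) = -2 * (C.NN κ f f ψ) - 2 * I (ψ * C.Γ f (C.lap f))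
      - 2 * (κ * I (ψ * C.Γ f f)) := by
    rw [e2]; ring
  rw [e3]
  unfold Gb
  have h3 : |κ * I (ψ * C.Γ f f)| ≤ |κ| * I (φ * C.Γ f f) := by
    rw [abs_mul]; exact mul_le_mul_of_nonneg_left a2 (abs_nonneg _)
  rw [abs_le] at *
  constructor <;> nlinarith [hN.1, hN.2, a1.1, a1.2, h3.1, h3.2]

omit hB in
/-- derivative in time of the heat flow tested with an `L²` function -/
theorem hasDeriv_I_P {F : M →ₘ[m] ℝ} (hψ : MemLp ψ 2 m) (hF2 : MemLp F 2 m) {s : ℝ} (hs : 0 < s) :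
    HasDerivAt (fun s => I (C.P s ψ * F)) (I (C.lap (C.P s ψ) * F)) s := by
  have hD := hC.toIsDir
  have h2 : 0 < s / 2 := by positivity
  have hL := hD.P_isLap h2 hψ
  have h3 := hD.P_hasDeriv_I h2 hL hF2
  have e1 : C.P (s / 2) (C.lap (C.P (s / 2) ψ)) = C.lap (C.P s ψ) := by
    have := hD.P_lap_add (s := s / 2) (t := s / 2) h2.le h2 hψ
    rw [← this]
    congr 2
    ring
  rw [e1] at h3
  have h4 : HasDerivAt (fun r : ℝ => r - s / 2) 1 s := (hasDerivAt_id s).sub_const _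
  have h5 : s - s / 2 = s / 2 := by ring
  have h6 : HasDerivAt (fun r => I (C.P (r - s / 2) (C.P (s / 2) ψ) * F))
      (I (C.lap (C.P s ψ) * F)) s := by
    have h3' : HasDerivAt (fun r => I (C.P r (C.P (s / 2) ψ) * F)) (I (C.lap (C.P s ψ) * F))
        (s - s / 2) := by rw [h5]; exact h3
    have := h3'.comp s h4
    simpa [Function.comp_def] using this
  refine h6.congr_of_eventuallyEq ?_
  filter_upwards [lt_mem_nhds (show s / 2 < s by linarith)] with r hr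
  rw [hD.P_P (by linarith) h2.le hψ]
  congr 3
  ring

variable [SigmaFinite m]

/-- time regularity: first form -/
theorem abs_I_P_sub_le (hf : f ∈ C.Test) {a b B : ℝ} (ha : 0 ≤ a) (hab : a ≤ b)
    (hφ : MemLp φ 2 m) (hφt : MemLp φ ∞ m) (hψ : MemLp ψ 2 m) (hψt : MemLp ψ ∞ m)
    (hle : ψ ≤ φ) (hge : -φ ≤ ψ) (hBd : ∀ σ ∈ Ioo a b, Gb C κ f (C.P σ φ) ≤ B) :
    |I (ψ * (C.P b (C.Γ f f) - C.P a (C.Γ f f)))| ≤ (b - a) * B := by
  have hD := hC.toIsDir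
  have hF := hC.Γ_mem hB hf hf
  have hF2 := hC.memLp _ hF.1
  rcases hab.eq_or_lt with rfl | hlt
  · simp only [sub_self, mul_zero, zero_mul, I_zero, abs_zero, le_refl]
  have hcont : Continuous fun s => I (C.P s ψ * C.Γ f f) := hD.P_cont_I hψ hF2
  have hder : ∀ s ∈ Ioo a b, HasDerivAt (fun s => I (C.P s ψ * C.Γ f f))
      (I (C.lap (C.P s ψ) * C.Γ f f)) s := fun s hs =>
    hasDeriv_I_P hC hψ hF2 (ha.trans_lt hs.1)
  obtain ⟨c, hc, hc2⟩ := exists_hasDerivAt_eq_slope _ _ hlt hcont.continuousOn hder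
  have hc0 : 0 < c := ha.trans_lt hc.1
  have e1 : ∀ s, 0 ≤ s → I (ψ * C.P s (C.Γ f f)) = I (C.P s ψ * C.Γ f f) := fun s hs =>
    (hD.P_symm s hψ hF2).symm
  have hPb := hD.P_mem2 b hF2
  have hPa := hD.P_mem2 a hF2
  have e2 : I (ψ * (C.P b (C.Γ f f) - C.P a (C.Γ f f)))
      = I (C.P b ψ * C.Γ f f) - I (C.P a ψ * C.Γ f f) := by
    rw [mul_sub, I_sub (mem_mul_22 hψ hPb) (mem_mul_22 hψ hPa), e1 b (ha.trans hab), e1 a ha]
  have e3 : I (C.lap (C.P c ψ) * C.Γ f f) = -I (C.Γ (C.P c ψ) (C.Γ f f)) := by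
    have := (hD.P_isLap hc0 hψ).2.2 _ hF.1
    rw [show I (C.Γ (C.P c ψ) (C.Γ f f)) = -I (C.lap (C.P c ψ) * C.Γ f f) from this]
    ring
  have hψA : C.P c ψ ∈ C.A := ⟨hD.P_mem hc0 hψ, hD.P_memTop hc0.le hψ hψt⟩
  have hφA : C.P c φ ∈ C.A := ⟨hD.P_mem hc0 hφ, hD.P_memTop hc0.le hφ hφt⟩
  have hle' : C.P c ψ ≤ C.P c φ := hD.P_mono hc0.le hψ hφ hle
  have hge' : -C.P c φ ≤ C.P c ψ := by
    rw [← hD.P_neg c hφ]
    exact hD.P_mono hc0.le (mem_neg hφ) hψ hge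
  have hb := abs_Γ_le hC hB hf hφA hψA hle' hge'
  have hb2 := hb.trans (hBd c hc)
  rw [e2]
  have hpos : 0 < b - a := by linarith
  rw [eq_div_iff hpos.ne'] at hc2
  rw [← hc2, e3, abs_mul, abs_neg, abs_of_pos hpos, mul_comm]
  exact mul_le_mul_of_nonneg_left hb2 hpos.le

/-- time regularity in the weighted `L¹` norm -/
theorem I_P_sub_le (hf : f ∈ C.Test) {a b B : ℝ} (ha : 0 ≤ a) (hab : a ≤ b)
    (hφ : MemLp φ 2 m) (hφt : MemLp φ ∞ m) (h0 : 0 ≤ φ)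
    (hBd : ∀ σ ∈ Ioo a b, Gb C κ f (C.P σ φ) ≤ B) :
    I (φ * |C.P b (C.Γ f f) - C.P a (C.Γ f f)|) ≤ (b - a) * B :=
  I_mul_ab_le hφ hφt h0 fun ψ h2 ht hle hge =>
    abs_I_P_sub_le hC hB hf ha hab hφ hφt h2 ht hle hge hBd

end

end Vale.Agent.P242.H597
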