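import Vale.Agent.P242.H597.Pre1

/-! P242, A4-PRE, part 2 (helper597): oscillation of `Γ(f,f)` around a centre, second order. -/

set_option linter.all false

open MeasureTheory Filter Topology Set
open scoped ENNReal NNReal

universe u

namespace Vale.Agent.P242.H597

open Vale.Agent.P233

variable {M : Type u} [MeasurableSpace M] {m : Measure M} {C : Calc m}

section

variable (hC : IsGamma C)
variable {f g : M →ₘ[m] ℝ}

include hC

theorem gr_mem2 (hf : f ∈ C.W) : MemLp (C.gr f) 2 m := by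
  rw [memLp_two_iff_integrable_sq (AEEqFun.aestronglyMeasurable _)]
  refine (int_of_mem (hC.mem1 f hf)).congr ?_
  filter_upwards [C.gr_ae f, nonneg_iff_ae.1 (hC.nonneg f hf)] with x h1 h2
  rw [h1, Real.sq_sqrt h2]

theorem gr_add_le (hf : f ∈ C.W) (hg : g ∈ C.W) : C.gr (f + g) ≤ C.gr f + C.gr g := by
  have hD := hC.toIsDir
  rw [le_iff_ae]
  have h1 := hD.Γ_expand 1 hf hg
  rw [one_smul, mul_one, one_pow, one_smul] at h1
  filter_upwards [hD.Γ_abs_ae hf hg, C.gr_ae (f + g), C.gr_ae f, C.gr_ae g,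
    add_ae (C.gr f) (C.gr g), hD.Γ_nonneg_ae hf, hD.Γ_nonneg_ae hg,
    add_ae (C.Γ f f + (2 : ℝ) • C.Γ f g) (C.Γ g g), add_ae (C.Γ f f) ((2 : ℝ) • C.Γ f g),
    smul_ae (C.Γ f g) 2] with x a2 a3 a4 a5 a6 a7 a8 a9 a10 a11
  rw [a6]
  rw [a3, a4, a5, h1, a9, a10, a11]
  apply Real.sqrt_le_iff.2
  refine ⟨by positivity, ?_⟩
  have e1 := Real.sq_sqrt a7
  have e2 := Real.sq_sqrt a8
  nlinarith [(abs_le.1 a2).2, a2]

theorem gr_neg (hf : f ∈ C.W) : C.gr (-f) = C.gr f := by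
  have hD := hC.toIsDir
  unfold Calc.gr
  rw [hD.Γ_neg_left hf (hD.neg_mem hf), hD.Γ_neg_right hf hf, neg_neg]

/-- triangle inequality for the weighted norm of the gradient -/
theorem I_gr_add_le {φ : M →ₘ[m] ℝ} (hφ : MemLp φ 2 m) (h0 : 0 ≤ φ) (hf : f ∈ C.W) (hg : g ∈ C.W) :
    I (φ * C.gr (f + g)) ≤ I (φ * C.gr f) + I (φ * C.gr g) := by
  have h1 := gr_mem2 hC hf
  have h2 := gr_mem2 hC hg
  rw [← I_add (mem_mul_22 hφ h1) (mem_mul_22 hφ h2), ← mul_add]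
  exact I_mono (mem_mul_22 hφ (gr_mem2 hC (hC.add_mem _ hf _ hg)))
    (mem_mul_22 hφ (mem_add h1 h2)) (mul_le_mul_of_nonneg_left (gr_add_le hC hf hg) h0)

end

/-- The two estimates of the kernel of a centre that are used here, for the times `≤ T₀`. -/
structure KF (C : Calc m) (φ : ℝ → M →ₘ[m] ℝ) (A κ₀ T₀ : ℝ) : Prop extends Cen C φ where
  one_le : 1 ≤ A
  κ_le : 1 ≤ κ₀
  /-- gradient of the heat flow -/
  k1 : ∀ s σ, 0 < s → 0 < σ → κ₀ * (s + σ) ≤ T₀ → ∀ g : M →ₘ[m] ℝ, MemLp g 2 m → MemLp g ∞ m →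
    I (φ s * C.gr (C.P σ g)) ≤ A / √σ * I (φ (κ₀ * (s + σ)) * |g|)
  /-- Poincaré inequality -/
  k7 : ∀ s, 0 < s → s ≤ T₀ → ∀ g ∈ C.A,
    I (φ s * |g - I (φ s * g) • (1 : M →ₘ[m] ℝ)|) ≤ A * √s * I (φ s * C.gr g)

section

variable (hC : IsGamma C) {κ : ℝ} (hB : C.BEi κ) [SigmaFinite m]
variable {f : M →ₘ[m] ℝ} {φ : ℝ → M →ₘ[m] ℝ} {A κ₀ T₀ : ℝ} (hφ : KF C φ A κ₀ T₀)

include hC hB hφ

/-- one dyadic step for the gradient of `P_σ F`, `F = Γ(f,f)` -/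
theorem step_gr (hf : f ∈ C.Test) {s σ B : ℝ} (hs : 0 < s) (hσ : 0 < σ)
    (hT : κ₀ * (s + σ) + 2 * σ ≤ T₀) (hBd : ∀ r, κ₀ * (s + σ / 2) + σ / 2 ≤ r →
      r ≤ κ₀ * (s + σ / 2) + 3 * σ / 2 → Gb C κ f (φ r) ≤ B) :
    I (φ s * C.gr (C.P σ (C.Γ f f) - C.P (2 * σ) (C.Γ f f))) ≤ 2 * A * √σ * B := by
  have hD := hC.toIsDir
  have hF := hC.Γ_mem hB hf hf
  have hF2 := hC.memLp _ hF.1
  have hA := hφ.one_le
  have hκ := hφ.κ_le
  have hσ2 : 0 < σ / 2 := by positivity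
  set G := C.P (σ / 2) (C.Γ f f) - C.P (3 * σ / 2) (C.Γ f f) with hG
  have m1 := hD.P_mem2 (σ / 2) hF2
  have m2 := hD.P_mem2 (3 * σ / 2) hF2
  have t1 := hD.P_memTop hσ2.le hF2 hF.2
  have t2 := hD.P_memTop (t := 3 * σ / 2) (by positivity) hF2 hF.2
  have e1 : C.P σ (C.Γ f f) - C.P (2 * σ) (C.Γ f f) = C.P (σ / 2) G := by
    rw [hG, hD.P_sub _ m1 m2, hD.P_P hσ2.le hσ2.le hF2, hD.P_P hσ2.le (by positivity) hF2]
    congr 2 <;> ring
  have hle : κ₀ * (s + σ / 2) ≤ T₀ := by nlinarith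
  rw [e1]
  refine (hφ.k1 s (σ / 2) hs hσ2 hle G (mem_sub m1 m2) (mem_sub t1 t2)).trans ?_
  set r₀ := κ₀ * (s + σ / 2) with hr₀
  have hr₀p : 0 < r₀ := by positivity
  have hmem := hφ.memA hD hr₀p
  have e2 : |G| = |C.P (3 * σ / 2) (C.Γ f f) - C.P (σ / 2) (C.Γ f f)| := by
    rw [eq_iff_ae]
    filter_upwards [abs_ae' G, abs_ae' (C.P (3 * σ / 2) (C.Γ f f) - C.P (σ / 2) (C.Γ f f)),
      sub_ae (C.P (σ / 2) (C.Γ f f)) (C.P (3 * σ / 2) (C.Γ f f)),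
      sub_ae (C.P (3 * σ / 2) (C.Γ f f)) (C.P (σ / 2) (C.Γ f f))] with x a1 a2 a3 a4
    rw [a1, a2, hG, a3, a4, abs_sub_comm]
  have h2 := I_P_sub_le hC hB hf (a := σ / 2) (b := 3 * σ / 2) (B := B) hσ2.le (by linarith)
    (hC.memLp _ hmem.1) hmem.2 (hφ.nonneg r₀ hr₀p) (by
      intro r hr
      rw [hφ.semi r₀ r hr₀p (hσ2.trans hr.1).le]
      exact hBd _ (by linarith [hr.1]) (by linarith [hr.2]))
  rw [← e2] at h2
  have h3 : 3 * σ / 2 - σ / 2 = σ := by ring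
  rw [h3] at h2
  have hB0 : 0 ≤ σ * B := le_trans (I_nonneg (mul_nonneg (hφ.nonneg r₀ hr₀p) (ab_nonneg G))) h2
  calc A / √(σ / 2) * I (φ r₀ * |G|) ≤ A / √(σ / 2) * (σ * B) :=
        mul_le_mul_of_nonneg_left h2 (by positivity)
    _ ≤ 2 * A / √σ * (σ * B) := by
        refine mul_le_mul_of_nonneg_right ?_ hB0
        rw [div_le_div_iff₀ (by positivity) (by positivity)]
        have h4 : √σ ≤ 2 * √(σ / 2) := by
          have : 2 * √(σ / 2) = √(2 * σ) := by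
            have h5 : (2 : ℝ) * σ = 2 ^ 2 * (σ / 2) := by ring
            rw [h5, Real.sqrt_mul (by norm_num), Real.sqrt_sq (by norm_num)]
          rw [this]
          exact Real.sqrt_le_sqrt (by linarith)
        nlinarith
    _ = 2 * A * √σ * B := by
        have h6 : √σ * √σ = σ := Real.mul_self_sqrt hσ.le
        have h7 : √σ ≠ 0 := by positivity
        field_simp
        rw [show √σ ^ 2 = σ from Real.sq_sqrt hσ.le]

omit hC hB hφ [SigmaFinite m] in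
theorem quarter_pow : (2⁻¹ : ℝ) ^ (1 / 4 : ℝ) ≤ 6 / 7 := by
  have h : ((6 / 7 : ℝ) ^ (4 : ℕ)) ^ (1 / 4 : ℝ) = 6 / 7 := by
    rw [← Real.rpow_natCast, ← Real.rpow_mul (by norm_num)]
    norm_num
  rw [← h]
  exact Real.rpow_le_rpow (by norm_num) (by norm_num) (by norm_num)

/-- the gradient of `P_σ F`, summed over the dyadic scales above `σ` -/
theorem gr_P_le (hf : f ∈ C.Test) {t a T₁ : ℝ} (ht : 0 < t) (ha : 0 ≤ a) (hT₁ : T₁ ≤ T₀)
    (hG : ∀ r, t ≤ r → r ≤ T₁ → Gb C κ f (φ r) ≤ a / t * (t / r) ^ (3 / 4 : ℝ)) {s : ℝ}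
    (hs : 0 < s) (J : ℕ) : ∀ σ, t ≤ σ → (κ₀ + 1) * (s + 2 ^ J * σ) ≤ T₁ →
    I (φ s * C.gr (C.P σ (C.Γ f f))) ≤ I (φ s * C.gr (C.P (2 ^ J * σ) (C.Γ f f)))
      + 14 * A * (a / √t) * (t / σ) ^ (1 / 4 : ℝ) := by
  have hD := hC.toIsDir
  have hF := hC.Γ_mem hB hf hf
  have hF2 := hC.memLp _ hF.1
  have hA := hφ.one_le
  have hκ := hφ.κ_le
  induction J with
  | zero =>
    intro σ hσ _
    have : 0 ≤ 14 * A * (a / √t) * (t / σ) ^ (1 / 4 : ℝ) := by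
      have : 0 < σ := ht.trans_le hσ
      positivity
    rw [pow_zero, one_mul]
    linarith
  | succ J ih =>
    intro σ hσ hT
    have hσ0 : 0 < σ := ht.trans_le hσ
    have h2J : (1 : ℝ) ≤ 2 ^ J := one_le_pow₀ (by norm_num)
    have hsσ : 2 * σ ≤ 2 ^ (J + 1) * σ := by
      rw [pow_succ]; nlinarith
    have hsT : s ≤ T₀ := by nlinarith
    have h1 := ih (2 * σ) (by linarith) (by
      have : (2 : ℝ) ^ J * (2 * σ) = 2 ^ (J + 1) * σ := by ring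
      rw [this]; exact hT)
    have e : (2 : ℝ) ^ J * (2 * σ) = 2 ^ (J + 1) * σ := by ring
    rw [e] at h1
    have hbd := step_gr hC hB hφ hf (s := s) (σ := σ) (B := a / t * (t / σ) ^ (3 / 4 : ℝ)) hs hσ0
      (by nlinarith) (by
        intro r hr1 hr2
        have hr : σ ≤ r := by nlinarith
        have hr0 : 0 < r := hσ0.trans_le hr
        refine (hG r (hσ.trans hr) (by nlinarith)).trans ?_
        refine mul_le_mul_of_nonneg_left ?_ (by positivity)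
        refine Real.rpow_le_rpow (by positivity) ?_ (by norm_num)
        exact div_le_div_of_nonneg_left ht.le hσ0 hr)
    have m1 : C.P σ (C.Γ f f) ∈ C.W := hD.P_mem hσ0 hF2
    have m2 : C.P (2 * σ) (C.Γ f f) ∈ C.W := hD.P_mem (by positivity) hF2
    have hφs := hφ.memA hD hs
    have h3 := I_gr_add_le hC (hC.memLp _ hφs.1) (hφ.nonneg s hs) (hD.sub_mem m1 m2) m2
    rw [sub_add_cancel] at h3
    have e2 : 2 * A * √σ * (a / t * (t / σ) ^ (3 / 4 : ℝ))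
        = 2 * A * (a / √t) * (t / σ) ^ (1 / 4 : ℝ) := by
      have h4 : (t / σ) ^ (3 / 4 : ℝ) = (t / σ) ^ (1 / 4 : ℝ) * √(t / σ) := by
        rw [Real.sqrt_eq_rpow, ← Real.rpow_add (by positivity)]
        norm_num
      rw [h4, Real.sqrt_div ht.le]
      have h5 : √t * √t = t := Real.mul_self_sqrt ht.le
      have h6 : √t ≠ 0 := by positivity
      have h7 : √σ ≠ 0 := by positivity
      field_simp
      rw [show √t ^ 2 = t from Real.sq_sqrt ht.le]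
    rw [e2] at hbd
    have h8 : (t / (2 * σ)) ^ (1 / 4 : ℝ) ≤ 6 / 7 * (t / σ) ^ (1 / 4 : ℝ) := by
      have : t / (2 * σ) = 2⁻¹ * (t / σ) := by field_simp
      rw [this, Real.mul_rpow (by norm_num) (by positivity)]
      exact mul_le_mul_of_nonneg_right quarter_pow (by positivity)
    have h9 : 14 * A * (a / √t) * (t / (2 * σ)) ^ (1 / 4 : ℝ)
        ≤ 14 * A * (a / √t) * (6 / 7 * (t / σ) ^ (1 / 4 : ℝ)) :=
      mul_le_mul_of_nonneg_left h8 (by positivity)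
    have h10 : 0 ≤ A * (a / √t) * (t / σ) ^ (1 / 4 : ℝ) := by positivity
    nlinarith

/-- **Second order oscillation** of `F = Γ(f,f)` around the centre, at scale `s ≥ t`. -/
theorem osc_le (hf : f ∈ C.Test) {t a T₁ : ℝ} (ht : 0 < t) (ha : 0 ≤ a) (hT₁ : T₁ ≤ T₀)
    (hG : ∀ r, t ≤ r → r ≤ T₁ → Gb C κ f (φ r) ≤ a / t * (t / r) ^ (3 / 4 : ℝ)) {s : ℝ}
    (hs : t ≤ s) (J : ℕ) (hJ : (κ₀ + 1) * (s + 2 ^ J * s) ≤ T₁) :
    I (φ s * |C.Γ f f - I (φ s * C.Γ f f) • (1 : M →ₘ[m] ℝ)|)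
      ≤ (2 + 14 * A ^ 2) * a * (s / t) ^ (1 / 4 : ℝ)
        + A * √s * I (φ s * C.gr (C.P (2 ^ J * s) (C.Γ f f))) := by
  have hD := hC.toIsDir
  have hF := hC.Γ_mem hB hf hf
  have hF2 := hC.memLp _ hF.1
  have hA := hφ.one_le
  have hκ := hφ.κ_le
  have hs0 : 0 < s := ht.trans_le hs
  have h2J : (1 : ℝ) ≤ 2 ^ J := one_le_pow₀ (by norm_num)
  have hsJ : s ≤ 2 ^ J * s := by nlinarith
  have hsT : 2 * s ≤ T₁ := by nlinarith
  have hsT0 : s ≤ T₀ := by linarith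
  have hφs := hφ.memA hD hs0
  have hφ1 := hφ.mem1 s hs0
  have hφn := hφ.nonneg s hs0
  have hPs : C.P s (C.Γ f f) ∈ C.A := ⟨hD.P_mem hs0 hF2, hD.P_memTop hs0.le hF2 hF.2⟩
  set F := C.Γ f f with hFdef
  set P := C.P s F with hPdef
  -- first part
  have h1 := I_P_sub_le hC hB hf (a := 0) (b := s) (B := a / t * (t / s) ^ (3 / 4 : ℝ)) le_rfl hs0.le
    (hC.memLp _ hφs.1) hφs.2 hφn (by
      intro r hr
      rw [hφ.semi s r hs0 hr.1.le]
      refine (hG _ (by linarith [hr.1]) (by linarith [hr.2])).trans ?_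
      refine mul_le_mul_of_nonneg_left ?_ (by positivity)
      refine Real.rpow_le_rpow (by have := hr.1; positivity) ?_ (by norm_num)
      exact div_le_div_of_nonneg_left ht.le hs0 (by linarith [hr.1]))
  rw [hD.P_zero_time hF2, sub_zero] at h1
  have e1 : s * (a / t * (t / s) ^ (3 / 4 : ℝ)) = a * (s / t) ^ (1 / 4 : ℝ) := by
    have h4 : (t / s) ^ (3 / 4 : ℝ) = ((s / t) ^ (3 / 4 : ℝ))⁻¹ := by
      rw [← Real.inv_rpow (by positivity), inv_div]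
    have h5 : s / t = (s / t) ^ (3 / 4 : ℝ) * (s / t) ^ (1 / 4 : ℝ) := by
      rw [← Real.rpow_add (by positivity)]
      norm_num
    rw [h4]
    have h6 : (s / t) ^ (3 / 4 : ℝ) ≠ 0 := by positivity
    calc s * (a / t * ((s / t) ^ (3 / 4 : ℝ))⁻¹) = a * (s / t) * ((s / t) ^ (3 / 4 : ℝ))⁻¹ := by
          field_simp
      _ = a * ((s / t) ^ (3 / 4 : ℝ) * (s / t) ^ (1 / 4 : ℝ)) * ((s / t) ^ (3 / 4 : ℝ))⁻¹ := by
          rw [← h5]
      _ = _ := by field_simp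
  rw [e1] at h1
  -- gradient part
  have h2 := gr_P_le hC hB hφ hf ht ha hT₁ hG hs0 J s hs hJ
  have h3 := hφ.k7 s hs0 hsT0 P hPs
  have e2 : √s * (a / √t) * (t / s) ^ (1 / 4 : ℝ) = a * (s / t) ^ (1 / 4 : ℝ) := by
    have h4 : (t / s) ^ (1 / 4 : ℝ) = ((s / t) ^ (1 / 4 : ℝ))⁻¹ := by
      rw [← Real.inv_rpow (by positivity), inv_div]
    have h5 : √s / √t = (s / t) ^ (1 / 4 : ℝ) * (s / t) ^ (1 / 4 : ℝ) := by
      rw [← Real.sqrt_div hs0.le, Real.sqrt_eq_rpow, ← Real.rpow_add (by positivity)]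
      norm_num
    rw [h4]
    have h6 : (s / t) ^ (1 / 4 : ℝ) ≠ 0 := by positivity
    calc √s * (a / √t) * ((s / t) ^ (1 / 4 : ℝ))⁻¹ = a * (√s / √t) * ((s / t) ^ (1 / 4 : ℝ))⁻¹ := by
          ring
      _ = _ := by rw [h5]; field_simp
  have hint1 : MemLp (φ s * |P - F| : M →ₘ[m] ℝ) 1 m :=
    mem_mul_22 (hC.memLp _ hφs.1) (ab_mem (mem_sub (hC.memLp _ hPs.1) hF2))
  -- the means
  have hPF : |I (φ s * P) - I (φ s * F)| ≤ I (φ s * |P - F|) := by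
    have := abs_I_mul_le (a := φ s) (b := P - F) (φ := φ s) hint1 le_rfl (by
      rw [le_iff_ae]
      filter_upwards [neg_ae (φ s), nonneg_iff_ae.1 hφn] with x u1 u2
      rw [u1]; linarith)
    rwa [mul_sub, I_sub (mem_mul_22 (hC.memLp _ hφs.1) (hC.memLp _ hPs.1))
      (mem_mul_22 (hC.memLp _ hφs.1) hF2)] at this
  set g1 := I (φ s * F) with hg1
  set g2 := I (φ s * P) with hg2
  have hone : MemLp (1 : M →ₘ[m] ℝ) ∞ m := mem_top_one
  have hint2 : MemLp (φ s * |P - g2 • (1 : M →ₘ[m] ℝ)| : M →ₘ[m] ℝ) 1 m :=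
    mem_top_mul hφ1 (ab_mem (mem_sub hPs.2 (mem_smul _ hone)))
  have hint3 : MemLp (φ s * |F - g1 • (1 : M →ₘ[m] ℝ)| : M →ₘ[m] ℝ) 1 m :=
    mem_top_mul hφ1 (ab_mem (mem_sub hF.2 (mem_smul _ hone)))
  have h4 : I (φ s * |F - g1 • (1 : M →ₘ[m] ℝ)|) ≤ I (φ s * |P - F|)
      + I (φ s * |P - g2 • (1 : M →ₘ[m] ℝ)|) + |g2 - g1| * I (φ s) := by
    rw [← I_smul, ← I_add hint1 hint2, ← I_add (mem_add hint1 hint2) (mem_smul _ hφ1)]
    refine I_mono hint3 (mem_add (mem_add hint1 hint2) (mem_smul _ hφ1)) ?_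
    rw [le_iff_ae]
    filter_upwards [mul_ae (φ s) (|F - g1 • (1 : M →ₘ[m] ℝ)|), abs_ae' (F - g1 • (1 : M →ₘ[m] ℝ)),
      sub_ae F (g1 • (1 : M →ₘ[m] ℝ)), smul_ae (1 : M →ₘ[m] ℝ) g1, one_ae (M := M) (m := m),
      add_ae (φ s * |P - F| + φ s * |P - g2 • (1 : M →ₘ[m] ℝ)|) (|g2 - g1| • φ s),
      add_ae (φ s * |P - F|) (φ s * |P - g2 • (1 : M →ₘ[m] ℝ)|), smul_ae (φ s) (|g2 - g1|),
      mul_ae (φ s) (|P - F|), abs_ae' (P - F), sub_ae P F,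
      mul_ae (φ s) (|P - g2 • (1 : M →ₘ[m] ℝ)|), abs_ae' (P - g2 • (1 : M →ₘ[m] ℝ)),
      sub_ae P (g2 • (1 : M →ₘ[m] ℝ)), smul_ae (1 : M →ₘ[m] ℝ) g2, nonneg_iff_ae.1 hφn]
      with x u1 u2 u3 u4 u5 u6 u7 u8 u9 u10 u11 u12 u13 u14 u15 u16
    rw [u1, u2, u3, u4, u6, u7, u8, u9, u10, u11, u12, u13, u14, u15, u5]
    have h5 : |F x - g1 * 1| ≤ |P x - F x| + |P x - g2 * 1| + |g2 - g1| := by
      have e : F x - g1 * 1 = -(P x - F x) + (P x - g2 * 1) + (g2 - g1) := by ring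
      rw [e]
      refine (abs_add_le _ _).trans (add_le_add ((abs_add_le _ _).trans ?_) le_rfl)
      rw [abs_neg]
    nlinarith
  rw [hφ.mass s hs0, mul_one] at h4
  have h6 : A * √s * I (φ s * C.gr P) ≤ A * √s * (I (φ s * C.gr (C.P (2 ^ J * s) F))
      + 14 * A * (a / √t) * (t / s) ^ (1 / 4 : ℝ)) := mul_le_mul_of_nonneg_left h2 (by positivity)
  have h7 : A * √s * (14 * A * (a / √t) * (t / s) ^ (1 / 4 : ℝ))
      = 14 * A ^ 2 * (a * (s / t) ^ (1 / 4 : ℝ)) := by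
    rw [← e2]; ring
  nlinarith [h1, h3, h4, h6, h7, hPF]

end

end Vale.Agent.P242.H597
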